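import Vale.Agent.P192.H593.Cuts

set_option linter.all false

/-! Boundaries of connected sets with connected complements are coarsely connected. -/

namespace Vale.Agent.P192.H437

open Vale.Agent.P192 Vale.Agent.P192.H593 Function

universe u v

variable {α : Type} [DecidableEq α] {X : Type u} [MulAction (FreeGroup α) X]

/-- chains in `B` with steps of norm at most `r` -/
def Chn (r : ℕ) (B : Set X) : X → X → Prop :=
  Relation.ReflTransGen fun a b => a ∈ B ∧ b ∈ B ∧ ∃ g : FreeGroup α, g.norm ≤ r ∧ g • a = b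

section cocycle

variable (F A : Set X)

open Classical in
/-- the crossing number of an edge -/
noncomputable def cst (l : α × Bool) (z : X) : ℤ :=
  (if z ∈ A ∧ lt l • z ∉ F then 1 else 0) - (if lt l • z ∈ A ∧ z ∉ F then 1 else 0)

theorem cst_inv (l : α × Bool) (z : X) : cst F A (l.1, !l.2) (lt l • z) = - cst F A l z := by
  unfold cst
  rw [Glue.lt_inv_smul]
  ring

/-- the permutation of the covering given by a letter -/
noncomputable def pm (a : α) : Equiv.Perm (X × ℤ) where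
  toFun p := (lt (a, true) • p.1, p.2 + cst F A (a, true) p.1)
  invFun p := (lt (a, false) • p.1, p.2 + cst F A (a, false) p.1)
  left_inv p := by
    have h1 := cst_inv F A (a, true) p.1
    have h2 := Glue.lt_inv_smul (a, true) p.1
    simp only [Bool.not_true] at h1 h2
    apply Prod.ext
    · exact h2
    · simp only [h1]; ring
  right_inv p := by
    have h1 := cst_inv F A (a, false) p.1
    have h2 := Glue.lt_inv_smul (a, false) p.1
    simp only [Bool.not_false] at h1 h2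
    apply Prod.ext
    · exact h2
    · simp only [h1]; ring

/-- the action on the covering -/
noncomputable def hom : FreeGroup α →* Equiv.Perm (X × ℤ) := FreeGroup.lift (pm F A)

theorem hom_lt (l : α × Bool) (p : X × ℤ) :
    hom F A (lt l) p = (lt l • p.1, p.2 + cst F A l p.1) := by
  obtain ⟨a, b⟩ := l
  cases b
  · have : (lt (a, false) : FreeGroup α) = (FreeGroup.of a)⁻¹ := by
      simp [lt, FreeGroup.of, FreeGroup.inv_mk, FreeGroup.invRev]
    rw [this, map_inv, ← this]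
    simp only [hom, FreeGroup.lift_apply_of]
    rfl
  · have : (lt (a, true) : FreeGroup α) = FreeGroup.of a := rfl
    rw [this]
    simp only [hom, FreeGroup.lift_apply_of]
    rfl

/-- the crossing number of a path -/
noncomputable def cs : List (α × Bool) → X → ℤ
  | [], _ => 0
  | l :: L, z => cs L z + cst F A l (FreeGroup.mk L • z)

theorem hom_mk (L : List (α × Bool)) (p : X × ℤ) :
    hom F A (FreeGroup.mk L) p = (FreeGroup.mk L • p.1, p.2 + cs F A L p.1) := by
  induction L with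
  | nil =>
    have h1 : (FreeGroup.mk [] : FreeGroup α) = 1 := rfl
    rw [h1, map_one, one_smul]
    simp [cs]
  | cons l L ih =>
    rw [mk_cons, map_mul, Equiv.Perm.mul_apply, ih, hom_lt, mul_smul]
    simp only [cs]
    rw [add_assoc]

open Classical in
theorem cs_all (hA : A ⊆ F) (L : List (α × Bool)) (z : X)
    (h : ∀ L₁, L₁ <:+ L → FreeGroup.mk L₁ • z ∈ IB (α := α) F → FreeGroup.mk L₁ • z ∈ A) :
    cs F A L z = (if z ∈ F then 1 else 0) - (if FreeGroup.mk L • z ∈ F then 1 else 0) := by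
  induction L with
  | nil =>
    have h1 : (FreeGroup.mk [] : FreeGroup α) = 1 := rfl
    rw [h1, one_smul]
    simp [cs]
  | cons l L ih =>
    have ih' := ih fun L₁ hL₁ => h L₁ (hL₁.trans (List.suffix_cons l L))
    simp only [cs]
    rw [ih']
    have h1 := h L (List.suffix_cons l L)
    have h2 := h (l :: L) List.suffix_rfl
    rw [mk_cons, mul_smul] at h2 ⊢
    set y := FreeGroup.mk L • z with hy
    unfold cst
    by_cases hyF : y ∈ F
    · by_cases hy'F : lt l • y ∈ F
      · simp [hyF, hy'F]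
      · have h3 : y ∈ A := h1 ⟨hyF, l, hy'F⟩
        have h4 : lt l • y ∉ A := fun h => hy'F (hA h)
        simp [hyF, hy'F, h3, h4]
    · have h3 : y ∉ A := fun h => hyF (hA h)
      by_cases hy'F : lt l • y ∈ F
      · have h4 : lt l • y ∈ A := h2 ⟨hy'F, (l.1, !l.2), by rw [Glue.lt_inv_smul]; exact hyF⟩
        simp [hyF, hy'F, h3, h4]
        ring
      · have h4 : lt l • y ∉ A := fun h => hy'F (hA h)
        simp [hyF, hy'F, h3, h4]

theorem cs_none (L : List (α × Bool)) (z : X)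
    (h : ∀ L₁, L₁ <:+ L → FreeGroup.mk L₁ • z ∉ A) : cs F A L z = 0 := by
  induction L with
  | nil => rfl
  | cons l L ih =>
    have ih' := ih fun L₁ hL₁ => h L₁ (hL₁.trans (List.suffix_cons l L))
    have h1 := h L (List.suffix_cons l L)
    have h2 := h (l :: L) List.suffix_rfl
    rw [mk_cons, mul_smul] at h2
    simp only [cs]
    rw [ih']
    unfold cst
    simp [h1, h2]

theorem suffix_near {r : ℕ} {L L₁ L₂ : List (α × Bool)} (hL : L.length ≤ r) (h₁ : L₁ <:+ L)
    (h₂ : L₂ <:+ L) (z : X) :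
    ∃ g : FreeGroup α, g.norm ≤ r ∧ g • FreeGroup.mk L₁ • z = FreeGroup.mk L₂ • z := by
  have key : ∀ L₁ L₂ : List (α × Bool), L₂ <:+ L → L₁ <:+ L₂ →
      ∃ g : FreeGroup α, g.norm ≤ r ∧ g • FreeGroup.mk L₁ • z = FreeGroup.mk L₂ • z := by
    rintro L₁ L₂ h₂ ⟨P, rfl⟩
    refine ⟨FreeGroup.mk P, ?_, ?_⟩
    · have h3 := FreeGroup.norm_mk_le (L₁ := P)
      have h4 := h₂.length_le
      rw [List.length_append] at h4
      omega
    · rw [← mul_smul, FreeGroup.mul_mk]
  rcases List.suffix_or_suffix_of_suffix h₁ h₂ with h | h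
  · exact key L₁ L₂ h₂ h
  · obtain ⟨g, hg, hg'⟩ := key L₂ L₁ h₁ h
    refine ⟨g⁻¹, by rw [FreeGroup.norm_inv_eq]; exact hg, ?_⟩
    rw [← hg', inv_smul_smul]

/-- relators act trivially on the covering -/
theorem hom_rel {r : ℕ} (hA : A ⊆ IB (α := α) F)
    (hAc : ∀ p ∈ A, ∀ g : FreeGroup α, g.norm ≤ r → g • p ∈ IB (α := α) F → g • p ∈ A)
    (w : FreeGroup α) (hw : w.norm ≤ r) (hX : ∀ x : X, w • x = x) : hom F A w = 1 := by
  have key : ∀ z : X, cs F A w.toWord z = 0 := by
    intro z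
    by_cases hex : ∃ L₁, L₁ <:+ w.toWord ∧ FreeGroup.mk L₁ • z ∈ A
    · obtain ⟨L₁, h₁, h₁'⟩ := hex
      rw [cs_all F A (fun x hx => (hA hx).1)]
      · rw [FreeGroup.mk_toWord, hX]
        ring
      · intro L₂ h₂ h₂'
        obtain ⟨g, hg, hg'⟩ := suffix_near (r := r) hw h₁ h₂ z
        rw [← hg'] at h₂' ⊢
        exact hAc _ h₁' g hg h₂'
    · push Not at hex
      exact cs_none F A _ _ hex
  ext p : 1
  have h := hom_mk F A w.toWord p
  rw [FreeGroup.mk_toWord] at h
  rw [h, hX, key, add_zero]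
  rfl

/-- no element moves a point of the covering by a non-zero deck transformation -/
theorem no_deck (R : Set (FreeGroup α)) {r : ℕ} (hR : ∀ w ∈ R, w.norm ≤ r)
    (htors : ∀ g : FreeGroup α, ∃ m, 0 < m ∧ g ^ m ∈ Subgroup.normalClosure R)
    (hRX : ∀ w ∈ R, ∀ x : X, w • x = x) (hA : A ⊆ IB (α := α) F)
    (hAc : ∀ p ∈ A, ∀ g : FreeGroup α, g.norm ≤ r → g • p ∈ IB (α := α) F → g • p ∈ A)
    (g : FreeGroup α) (x : X) (h : hom F A g (x, 0) = (x, 1)) : False := by
  obtain ⟨m, hm, hgm⟩ := htors g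
  have hker : Subgroup.normalClosure R ≤ (hom F A).ker := by
    apply Subgroup.normalClosure_le_normal
    intro w hw
    exact hom_rel F A hA hAc w (hR w hw) (hRX w hw)
  have h1 : ∀ t : ℤ, hom F A g (x, t) = (x, t + 1) := by
    intro t
    have h2 := hom_mk F A g.toWord (x, 0)
    have h3 := hom_mk F A g.toWord (x, t)
    rw [FreeGroup.mk_toWord] at h2 h3
    rw [h] at h2
    have h4 := congrArg Prod.fst h2
    have h5 := congrArg Prod.snd h2
    simp only [zero_add] at h4 h5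
    rw [h3]
    simp only
    rw [← h4, ← h5]
  have h2 : ∀ n : ℕ, hom F A (g ^ n) (x, 0) = (x, (n : ℤ)) := by
    intro n
    induction n with
    | zero => simp
    | succ n ih =>
      rw [pow_succ', map_mul, Equiv.Perm.mul_apply, ih, h1]
      push_cast
      rfl
  have h3 := h2 m
  have h4 : hom F A (g ^ m) = 1 := hker hgm
  rw [h4] at h3
  have h5 := congrArg Prod.snd h3
  simp only [Equiv.Perm.one_apply] at h5
  omega

/-- orbit relation on the covering -/
def Orb (p q : X × ℤ) : Prop := ∃ g : FreeGroup α, hom F A g p = q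

theorem Orb.refl' (p : X × ℤ) : Orb (α := α) F A p p := ⟨1, by simp⟩

theorem Orb.symm' {p q : X × ℤ} (h : Orb (α := α) F A p q) : Orb (α := α) F A q p := by
  obtain ⟨g, rfl⟩ := h
  exact ⟨g⁻¹, by rw [map_inv]; simp⟩

theorem Orb.trans' {p q s : X × ℤ} (h : Orb (α := α) F A p q) (h' : Orb (α := α) F A q s) :
    Orb (α := α) F A p s := by
  obtain ⟨g, rfl⟩ := h
  obtain ⟨g', rfl⟩ := h'
  exact ⟨g' * g, by rw [map_mul]; rfl⟩

theorem Orb.conn {U : Set X} (hU : ∀ z ∈ U, ∀ l : α × Bool, lt l • z ∈ U → cst F A l z = 0)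
    {x y : X} (h : Conn (α := α) U x y) (t : ℤ) : Orb (α := α) F A (x, t) (y, t) := by
  induction h with
  | refl => exact Orb.refl' F A _
  | @tail y z _ hst ih =>
    obtain ⟨h1, h2, l, rfl⟩ := hst
    refine ih.trans' F A ⟨lt l, ?_⟩
    rw [hom_lt]
    simp only
    rw [hU y h1 l h2, add_zero]

end cocycle

/-- COARSE CONNECTEDNESS OF BOUNDARIES, free group form -/
theorem coh (R : Set (FreeGroup α)) (r : ℕ) (hR : ∀ w ∈ R, w.norm ≤ r)
    (htors : ∀ g : FreeGroup α, ∃ m, 0 < m ∧ g ^ m ∈ Subgroup.normalClosure R)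
    (hRX : ∀ w ∈ R, ∀ x : X, w • x = x) (F E : Set X) (hdis : ∀ x ∈ E, x ∉ F)
    (hF : ∀ x ∈ F, ∀ y ∈ F, Conn (α := α) F x y) (hE : ∀ x ∈ E, ∀ y ∈ E, Conn (α := α) E x y)
    (hFE : ∀ x ∈ F, ∀ l : α × Bool, lt l • x ∉ F → lt l • x ∈ E) :
    ∀ x ∈ IB (α := α) F, ∀ y ∈ IB (α := α) F, Chn (α := α) r (IB (α := α) F) x y := by
  intro x hx y hy
  by_contra hno
  set A : Set X := {z | z ∈ IB (α := α) F ∧ Chn (α := α) r (IB (α := α) F) x z} with hAdef
  have hAI : A ⊆ IB (α := α) F := fun z hz => hz.1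
  have hAF : ∀ z ∈ A, z ∈ F := fun z hz => hz.1.1
  have hAc : ∀ p ∈ A, ∀ g : FreeGroup α, g.norm ≤ r → g • p ∈ IB (α := α) F → g • p ∈ A := by
    intro p hp g hg h
    exact ⟨h, hp.2.tail ⟨hp.1, h, g, hg, rfl⟩⟩
  have hxA : x ∈ A := ⟨hx, Relation.ReflTransGen.refl⟩
  have hyA : y ∉ A := fun h => hno h.2
  have hcF : ∀ z ∈ F, ∀ l : α × Bool, lt l • z ∈ F → cst F A l z = 0 := by
    intro z hz l hl
    unfold cst
    simp [hz, hl]
  have hcE : ∀ z ∈ E, ∀ l : α × Bool, lt l • z ∈ E → cst F A l z = 0 := by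
    intro z hz l hl
    have h1 : z ∉ A := fun h => hdis z hz (hAF z h)
    have h2 : lt l • z ∉ A := fun h => hdis _ hl (hAF _ h)
    unfold cst
    simp [h1, h2]
  obtain ⟨hxF, lx, hlx⟩ := hx
  obtain ⟨hyF, ly, hly⟩ := hy
  have hxE := hFE x hxF lx hlx
  have hyE := hFE y hyF ly hly
  have s1 : Orb (α := α) F A (x, 0) (lt lx • x, 1) := by
    refine ⟨lt lx, ?_⟩
    have h2 : lt lx • x ∉ A := fun h => hdis _ hxE (hAF _ h)
    rw [hom_lt]
    unfold cst
    simp [hxA, hlx, h2]
  have s2 : Orb (α := α) F A (y, 1) (lt ly • y, 1) := by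
    refine ⟨lt ly, ?_⟩
    have h2 : lt ly • y ∉ A := fun h => hdis _ hyE (hAF _ h)
    rw [hom_lt]
    unfold cst
    simp [hyA, h2]
  have s3 : Orb (α := α) F A (x, 0) (x, 1) :=
    (s1.trans' F A (Orb.conn F A hcE (hE _ hxE _ hyE) 1)).trans' F A
      ((s2.symm' F A).trans' F A (Orb.conn F A hcF (hF y hyF x hxF) 1))
  obtain ⟨g, hg⟩ := s3
  exact no_deck F A R hR htors hRX hAI hAc g x hg

end Vale.Agent.P192.H437
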