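import Vale.Agent.P192.H437.Loc

set_option linter.all false

/-! Two-colourings with small monochromatic components, free group form. -/

namespace Vale.Agent.P192.H437

open Vale.Agent.P192 Vale.Agent.P192.H593 Function

universe u v

section lev

variable {X : Type u} (rel : X → X → Prop) (x : X)

/-- points reached in at most `n` steps -/
def lev : ℕ → Set X
  | 0 => {x}
  | n + 1 => lev n ∪ {z | ∃ y ∈ lev n, rel y z}

theorem lev_mono {m n : ℕ} (h : m ≤ n) : lev rel x m ⊆ lev rel x n := by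
  induction h with
  | refl => exact subset_rfl
  | step _ ih => exact ih.trans Set.subset_union_left

theorem lev_reach (n : ℕ) : lev rel x n ⊆ {z | Relation.ReflTransGen rel x z} := by
  induction n with
  | zero =>
    rintro z hz
    have : z = x := hz
    rw [this]
    exact Relation.ReflTransGen.refl
  | succ n ih =>
    rintro z (hz | ⟨y, hy, hyz⟩)
    · exact ih hz
    · exact Relation.ReflTransGen.tail (ih hy) hyz

theorem reach_lev (K : ℕ) (h : {z | Relation.ReflTransGen rel x z}.encard ≤ K) :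
    {z | Relation.ReflTransGen rel x z} ⊆ lev rel x K := by
  by_contra hno
  obtain ⟨z, hz, hzK⟩ := Set.not_subset.1 hno
  have key : ∀ n ≤ K, ((n + 1 : ℕ) : ℕ∞) ≤ (lev rel x n).encard := by
    intro n
    induction n with
    | zero =>
      intro _
      show ((0 + 1 : ℕ) : ℕ∞) ≤ ({x} : Set X).encard
      rw [Set.encard_singleton]; simp
    | succ n ih =>
      intro hn
      have h1 := ih (by omega)
      obtain ⟨z', hz', hz'n⟩ : ∃ z', z' ∈ lev rel x (n + 1) ∧ z' ∉ lev rel x n := by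
        by_contra hcl
        push Not at hcl
        have hclosed : ∀ w, Relation.ReflTransGen rel x w → w ∈ lev rel x n := by
          intro w hw
          induction hw with
          | refl => exact lev_mono rel x (Nat.zero_le n) rfl
          | tail _ hst ih' => exact hcl _ (Or.inr ⟨_, ih', hst⟩)
        exact hzK (lev_mono rel x (by omega) (hclosed z hz))
      have h2 : insert z' (lev rel x n) ⊆ lev rel x (n + 1) :=
        Set.insert_subset hz' (lev_mono rel x (Nat.le_succ n))
      refine le_trans ?_ (Set.encard_le_encard h2)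
      rw [Set.encard_insert_of_notMem hz'n]
      have h3 : (((n + 1 : ℕ) + 1 : ℕ) : ℕ∞) = ((n + 1 : ℕ) : ℕ∞) + 1 := by push_cast; rfl
      rw [h3]
      exact add_le_add_left h1 1
  have h1 := (key K le_rfl).trans ((Set.encard_le_encard (lev_reach rel x K)).trans h)
  have h2 : K + 1 ≤ K := by exact_mod_cast h1
  omega

end lev

variable {α : Type} [DecidableEq α] {X : Type u} [MulAction (FreeGroup α) X]

/-- monochromatic chains -/
def Mch (ρ : ℕ) (U : Set X) : X → X → Prop :=
  Relation.ReflTransGen fun a b => (a ∈ U ↔ b ∈ U) ∧ ∃ g : FreeGroup α, g.norm ≤ ρ ∧ g • a = b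

theorem Mch.colour {ρ : ℕ} {U : Set X} {x y : X} (h : Mch (α := α) ρ U x y) : x ∈ U ↔ y ∈ U := by
  induction h with
  | refl => exact Iff.rfl
  | tail _ hst ih => exact ih.trans hst.1

theorem Mch.near {ρ : ℕ} {U : Set X} {x y : X} (K : ℕ)
    (hK : {z | Mch (α := α) ρ U x z}.encard ≤ K) (h : Mch (α := α) ρ U x y) :
    ∃ g : FreeGroup α, g.norm ≤ ρ * K ∧ g • x = y := by
  have h1 := reach_lev _ x K hK h
  have key : ∀ n, ∀ y ∈ lev (fun a b => (a ∈ U ↔ b ∈ U) ∧ ∃ g : FreeGroup α, g.norm ≤ ρ ∧ g • a = b)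
      x n, ∃ g : FreeGroup α, g.norm ≤ ρ * n ∧ g • x = y := by
    intro n
    induction n with
    | zero =>
      intro y hy
      have : y = x := hy
      exact ⟨1, by simp, by rw [this, one_smul]⟩
    | succ n ih =>
      rintro y (hy | ⟨z, hz, -, g, hg, rfl⟩)
      · obtain ⟨g, hg, hg'⟩ := ih y hy
        exact ⟨g, by rw [Nat.mul_succ]; omega, hg'⟩
      · obtain ⟨g', hg', rfl⟩ := ih z hz
        refine ⟨g * g', ?_, mul_smul _ _ _⟩
        have := FreeGroup.norm_mul_le g g'
        rw [Nat.mul_succ]; omega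
  exact key K y h1

/-- size of the unit ball -/
noncomputable def bb (α : Type) [DecidableEq α] : ℕ := Nat.card {g : FreeGroup α // g.norm ≤ 1}

theorem colourF [Finite α] (R : Set (FreeGroup α)) (r : ℕ) (hr : 2 ≤ r)
    (hR : ∀ w ∈ R, w.norm ≤ r)
    (htors : ∀ g : FreeGroup α, ∃ m, 0 < m ∧ g ^ m ∈ Subgroup.normalClosure R)
    (hRX : ∀ w ∈ R, ∀ x : X, w • x = x) (htr : ∀ x y : X, ∃ g : FreeGroup α, g • x = y)
    (U : Set X) (x0 : X) (n K L : ℕ)
    (hK : ∀ y ∈ Nb α {x0} n, {z | Mch (α := α) (r + 2) U y z}.encard ≤ K)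
    (hn : Nb α {x0} n ≠ Set.univ) (hL : (L + 1) * ((r + 2) * K + 1) ≤ n) :
    L + 1 ≤ (r + 2) * (bb α * K + 2) ^ (mm α r * (bb α * K)) := by
  classical
  set q := (r + 2) * K + 1 with hq
  set C : ℕ → Set X := fun j => {z | z ∈ Nb α {x0} (j * q) ∨
    ∃ y ∈ Nb α {x0} (j * q), y ∉ U ∧ Mch (α := α) (r + 2) U y z} with hC
  have hqL : ∀ j ≤ L, j * q + q ≤ n := by
    intro j hj
    calc j * q + q = (j + 1) * q := by ring
      _ ≤ (L + 1) * q := Nat.mul_le_mul_right _ (by omega)
      _ ≤ n := hL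
  have hCsub : ∀ j ≤ L, C j ⊆ Nb α {x0} (j * q + (r + 2) * K) := by
    intro j hj z hz
    rcases hz with hz | ⟨y, hy, -, hyz⟩
    · exact Nb_mono (by omega) hz
    · have hyn : y ∈ Nb α {x0} n := Nb_mono (by have := hqL j hj; omega) hy
      obtain ⟨g, hg, rfl⟩ := Mch.near K (hK y hyn) hyz
      exact Nb_smul hy g hg
  have hmono : ∀ i j, i ≤ j → j ≤ L → C i ⊆ C j := by
    intro i j hij _ z hz
    have h1 : Nb α {x0} (i * q) ⊆ Nb α {x0} (j * q) := Nb_mono (Nat.mul_le_mul_right _ hij)
    rcases hz with hz | ⟨y, hy, hyU, hyz⟩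
    · exact Or.inl (h1 hz)
    · exact Or.inr ⟨y, h1 hy, hyU, hyz⟩
  have hU : ∀ j ≤ L, ∀ z ∈ IB (α := α) (C j), ∃ h : FreeGroup α, h.norm ≤ 1 ∧ h • z ∈ U := by
    rintro j hj z ⟨hz, l, hl⟩
    by_contra hno
    push Not at hno
    have h1 : z ∉ U := by
      have := hno 1 (by simp)
      rwa [one_smul] at this
    have h2 : lt l • z ∉ U := hno (lt l) (lt_norm l)
    have hstep : (z ∈ U ↔ lt l • z ∈ U) ∧ ∃ g : FreeGroup α, g.norm ≤ r + 2 ∧ g • z = lt l • z :=
      ⟨iff_of_false h1 h2, lt l, (lt_norm l).trans (by omega), rfl⟩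
    apply hl
    rcases hz with hz | ⟨y, hy, hyU, hyz⟩
    · exact Or.inr ⟨z, hz, h1, Relation.ReflTransGen.single hstep⟩
    · exact Or.inr ⟨y, hy, hyU, hyz.tail hstep⟩
  have hfin := cutsLocF R r (bb α * K) 1 hr hR htors hRX htr C L
    ⟨x0, Or.inl (Nb_mono (Nat.zero_le _) (Nb_zero rfl))⟩
    (by
      intro h
      apply hn
      rw [Set.eq_univ_iff_forall] at h ⊢
      intro y
      exact Nb_mono (by have := hqL L le_rfl; omega) (hCsub L le_rfl (h y)))
    hmono
    (by
      intro i hi x hx l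
      left
      have h1 := Nb_smul (hCsub i (by omega) hx) (lt l) (lt_norm l)
      refine Nb_mono (le_of_eq ?_) h1
      rw [hq]; ring)
    (Finset.range (L + 1))
    (by
      intro j hj
      have hj' : j ≤ L := by have := Finset.mem_range.1 hj; omega
      refine ⟨hj', ?_⟩
      intro x hx
      obtain ⟨h0, hh0, hu0⟩ := hU j hj' x hx
      set u0 := h0 • x with hu0def
      have hu0n : u0 ∈ Nb α {x0} n := by
        have h1 := Nb_smul (hCsub j hj' hx.1) h0 hh0
        exact Nb_mono (by have := hqL j hj'; omega) h1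
      have key : ∀ y, Chn (α := α) r (IB (α := α) (C j)) x y →
          ∃ h : FreeGroup α, h.norm ≤ 1 ∧ h • y ∈ U ∧ Mch (α := α) (r + 2) U u0 (h • y) := by
        intro y hy
        induction hy with
        | refl => exact ⟨h0, hh0, hu0, Relation.ReflTransGen.refl⟩
        | @tail a b _ hst ih =>
          obtain ⟨ha, hb, g, hg, rfl⟩ := hst
          obtain ⟨h1, hh1, hu1, hm1⟩ := ih
          obtain ⟨h2, hh2, hu2⟩ := hU j hj' _ hb
          refine ⟨h2, hh2, hu2, hm1.tail ⟨iff_of_true hu1 hu2, h2 * g * h1⁻¹, ?_, ?_⟩⟩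
          · have e1 := FreeGroup.norm_mul_le (h2 * g) h1⁻¹
            have e2 := FreeGroup.norm_mul_le h2 g
            rw [FreeGroup.norm_inv_eq] at e1
            omega
          · rw [mul_smul, inv_smul_smul, mul_smul]
      have hsub : {y | Chn (α := α) r (IB (α := α) (C j)) x y} ⊆
          (fun p : {g : FreeGroup α // g.norm ≤ 1} × X => p.1.1⁻¹ • p.2) ''
            (Set.univ ×ˢ {w | Mch (α := α) (r + 2) U u0 w}) := by
        intro y hy
        obtain ⟨h, hh, -, hm⟩ := key y hy
        exact ⟨(⟨h, hh⟩, h • y), ⟨trivial, hm⟩, inv_smul_smul _ _⟩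
      refine (Set.encard_le_encard hsub).trans ((Set.encard_image_le _ _).trans ?_)
      rw [Set.encard_prod, Set.encard_univ, ENat.card_eq_coe_natCard, Nat.cast_mul]
      exact mul_le_mul_right (hK u0 hu0n) _)
  rw [Finset.card_range] at hfin
  have e : 1 * (r + 1) + 1 = r + 2 := by ring
  rwa [e] at hfin

end Vale.Agent.P192.H437
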