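import Mathlib.Algebra.Group.Action.Defs
import Mathlib.Algebra.BigOperators.Group.List.Defs
import Mathlib.Logic.Relation

/-! Coarse connectedness in Schreier graphs. -/

namespace Vale.Agent.P192.H437

universe u v

/-- `hop S R x y`: the point `y` of the `G`-set is reached from `x` by at most `R` steps, each of them
with an element of `S` or the inverse of an element of `S`. -/
def hop {G : Type v} {X : Type u} [Group G] [MulAction G X] (S : Set G) (R : ℕ) (x y : X) : Prop :=
  ∃ w : List G, (∀ s ∈ w, s ∈ S ∨ s⁻¹ ∈ S) ∧ w.length ≤ R ∧ w.prod • x = y

/-- `linked S R B x y`: one gets from `x` to `y` by a finite chain of points of `B` whose consecutive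
members are at distance at most `R` in the Schreier graph with respect to `S`. -/
def linked {G : Type v} {X : Type u} [Group G] [MulAction G X] (S : Set G) (R : ℕ) (B : Set X) :
    X → X → Prop :=
  Relation.ReflTransGen fun a b => a ∈ B ∧ b ∈ B ∧ hop S R a b

/-- `mono S R U x y`: one gets from `x` to `y` by a finite chain whose consecutive members are at
distance at most `R` in the Schreier graph with respect to `S`, and which runs inside `U` or inside
the complement of `U`. -/
def mono {G : Type v} {X : Type u} [Group G] [MulAction G X] (S : Set G) (R : ℕ) (U : Set X) :
    X → X → Prop :=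
  Relation.ReflTransGen fun a b => (a ∈ U ↔ b ∈ U) ∧ hop S R a b

end Vale.Agent.P192.H437
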