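import Vale.Agent.P192.H437.Pres
import Vale.Agent.P192.H437.Defs
import Vale.Agent.P192.H593.CutsG

set_option linter.all false

/-! Coarse connectedness of boundaries and locally small boundaries, group form. -/

namespace Vale.Agent.P192.H437

open Vale.Agent.P192 Vale.Agent.P192.H593 Function

universe u v

section

variable {G : Type v} [Group G] {M : ℕ} (σ : Fin M → G)

theorem lift_lt (l : Fin M × Bool) :
    (FreeGroup.lift σ) (lt l) = cond l.2 (σ l.1) (σ l.1)⁻¹ := by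
  unfold lt
  rw [FreeGroup.lift_mk]
  simp

variable {X : Type u} [MulAction G X]

theorem hop_of_norm {S : Set G} (hS : Set.range σ ⊆ S) {R : ℕ} (g : FreeGroup (Fin M))
    (hg : g.norm ≤ R) (x : X) : hop S R x ((FreeGroup.lift σ g : G) • x) := by
  obtain ⟨w, h1, h2, h3⟩ := list_of_free σ g
  refine ⟨w, fun s hs => ?_, by omega, by rw [h3]⟩
  rcases h1 s hs with h | h
  · exact Or.inl (hS h)
  · exact Or.inr (hS h)

theorem norm_of_hop {R : ℕ} {x y : X} (h : hop (Set.range σ) R x y) :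
    ∃ g : FreeGroup (Fin M), g.norm ≤ R ∧ (FreeGroup.lift σ g : G) • x = y := by
  obtain ⟨w, h1, h2, h3⟩ := h
  obtain ⟨g, h4, h5⟩ := free_of_list σ w h1
  exact ⟨g, by omega, by rw [h5, h3]⟩

theorem conn_of_linked (C : Set X) {x y : X} (h : linked (Set.range σ) 1 C x y) :
    @Conn (Fin M) X (MulAction.compHom X (FreeGroup.lift σ : FreeGroup (Fin M) →* G)) C x y := by
  letI : MulAction (FreeGroup (Fin M)) X :=
    MulAction.compHom X (FreeGroup.lift σ : FreeGroup (Fin M) →* G)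
  have hsm : ∀ (g : FreeGroup (Fin M)) (x : X), g • x = (FreeGroup.lift σ g : G) • x :=
    fun _ _ => rfl
  induction h with
  | refl => exact Relation.ReflTransGen.refl
  | @tail a b _ hst ih =>
    obtain ⟨ha, hb, w, h1, h2, rfl⟩ := hst
    rcases w with _ | ⟨s, w⟩
    · simpa using ih
    · have hw : w = [] := by
        rw [List.length_cons] at h2
        exact List.length_eq_zero_iff.1 (by omega)
      subst hw
      rw [List.prod_singleton] at hb ⊢
      rcases h1 s (by simp) with ⟨i, hi⟩ | ⟨i, hi⟩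
      · refine ih.tail ⟨ha, hb, (i, true), ?_⟩
        rw [hsm, lift_lt, ← hi]; rfl
      · refine ih.tail ⟨ha, hb, (i, false), ?_⟩
        rw [hsm, lift_lt]
        show (σ i)⁻¹ • a = s • a
        rw [hi, inv_inv]

end

/-- COARSE CONNECTEDNESS OF BOUNDARIES -/
theorem boundary_linked (G : Type v) [Group G] [Group.IsFinitelyPresented G] (hG : IsMulTorsion G)
    (S : Set G) (hSfin : S.Finite) (hS : Subgroup.closure S = ⊤) :
    ∃ R : ℕ, ∀ (X : Type u) [MulAction G X] (C : Set X),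
      (∀ x ∈ C, ∀ y ∈ C, linked S 1 C x y) → (∀ x ∉ C, ∀ y ∉ C, linked S 1 Cᶜ x y) →
      ∀ x ∈ bdry S C, ∀ y ∈ bdry S C, linked S R (bdry S C) x y := by
  obtain ⟨M, σ, -, hσ, hσS⟩ := exists_tuple G S hS
  obtain ⟨D⟩ := exists_data G hG σ hσ
  have hS' := hσS hSfin
  subst hS'
  refine ⟨D.r, ?_⟩
  intro X _ C hC hC'
  letI : MulAction (FreeGroup (Fin M)) X :=
    MulAction.compHom X (FreeGroup.lift σ : FreeGroup (Fin M) →* G)
  have hsm : ∀ (g : FreeGroup (Fin M)) (x : X), g • x = (FreeGroup.lift σ g : G) • x :=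
    fun _ _ => rfl
  have hb : bdry (Set.range σ) C = IB (α := Fin M) C := by
    ext x
    constructor
    · rintro ⟨hx, _, ⟨i, rfl⟩, h | h⟩
      · exact ⟨hx, (i, true), by rw [hsm, lift_lt]; exact h⟩
      · exact ⟨hx, (i, false), by rw [hsm, lift_lt]; exact h⟩
    · rintro ⟨hx, ⟨i, b⟩, hl⟩
      rw [hsm, lift_lt] at hl
      cases b
      · exact ⟨hx, σ i, ⟨i, rfl⟩, Or.inr hl⟩
      · exact ⟨hx, σ i, ⟨i, rfl⟩, Or.inl hl⟩
  intro x hx y hy
  rw [hb] at hx hy
  have h1 := coh D.R D.r D.hR D.htors (X := X)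
    (fun w hw x => by rw [hsm, D.hone w hw, one_smul]) C Cᶜ
    (fun x hx h => hx h) (fun x hx y hy => conn_of_linked σ C (hC x hx y hy))
    (fun x hx y hy => conn_of_linked σ Cᶜ (hC' x hx y hy)) (fun x _ l h => h) x hx y hy
  refine Relation.ReflTransGen.mono ?_ _ _ h1
  rintro a b ⟨ha, hb', g, hg, rfl⟩
  refine ⟨by rw [hb]; exact ha, by rw [hb]; exact hb', ?_⟩
  rw [hsm]
  exact hop_of_norm σ subset_rfl g hg a

/-- separated chains with locally small boundaries -/
theorem local_cuts (G : Type v) [Group G] [Group.IsFinitelyPresented G] (hG : IsMulTorsion G)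
    (S : Set G) (hS : Subgroup.closure S = ⊤) :
    ∃ R m : ℕ, ∀ (X : Type u) [MulAction G X] [MulAction.IsPretransitive G X]
      (C : ℕ → Set X) (L k : ℕ), (C 0).Nonempty → C L ≠ Set.univ →
      (∀ i < L, ∀ x ∈ C i, x ∈ C (i + 1) ∧ ∀ s ∈ S, s • x ∈ C (i + 1) ∧ s⁻¹ • x ∈ C (i + 1)) →
      {i | i ≤ L ∧ ∀ x ∈ bdry S (C i), {y | linked S R (bdry S (C i)) x y}.encard ≤ k}.encard ≤
        (((k + 2) ^ (m * k) : ℕ) : ℕ∞) := by
  classical
  obtain ⟨M, σ, hσS, hσ, -⟩ := exists_tuple G S hS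
  obtain ⟨D⟩ := exists_data G hG σ hσ
  refine ⟨D.r, D.r + 2 + mm (Fin M) D.r, ?_⟩
  intro X _ _ C L k hC0 hCL hC
  have hmono : ∀ i j, i ≤ j → j ≤ L → C i ⊆ C j := by
    intro i j hij
    induction hij with
    | refl => intro _; exact subset_rfl
    | @step j hij ih =>
      intro hj
      exact (ih (by omega)).trans fun x hx => (hC j (by omega) x hx).1
  have hne : ∀ i ≤ L, (bdry S (C i)).Nonempty := by
    intro i hi
    apply bdry_nonempty S hS
    · exact hC0.mono (hmono 0 i (Nat.zero_le i) hi)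
    · intro h
      apply hCL
      rw [Set.eq_univ_iff_forall] at h ⊢
      exact fun y => hmono i L hi le_rfl (h y)
  rcases Nat.eq_zero_or_pos k with hk0 | hk
  · subst hk0
    have : {i | i ≤ L ∧ ∀ x ∈ bdry S (C i),
        {y | linked S D.r (bdry S (C i)) x y}.encard ≤ ((0 : ℕ) : ℕ∞)} = ∅ := by
      rw [Set.eq_empty_iff_forall_notMem]
      rintro i ⟨hi, hi'⟩
      obtain ⟨x, hx⟩ := hne i hi
      have h1 : (1 : ℕ∞) ≤ {y | linked S D.r (bdry S (C i)) x y}.encard :=
        Set.one_le_encard_iff_nonempty.2 ⟨x, Relation.ReflTransGen.refl⟩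
      have h2 := h1.trans (hi' x hx)
      simp at h2
    rw [this]
    simp
  letI : MulAction (FreeGroup (Fin M)) X :=
    MulAction.compHom X (FreeGroup.lift σ : FreeGroup (Fin M) →* G)
  have hsm : ∀ (g : FreeGroup (Fin M)) (x : X), g • x = (FreeGroup.lift σ g : G) • x :=
    fun _ _ => rfl
  have hIB : ∀ U : Set X, IB (α := Fin M) U ⊆ bdry S U := by
    rintro U x ⟨hx, ⟨i, b⟩, hl⟩
    rw [hsm, lift_lt] at hl
    cases b
    · exact ⟨hx, σ i, hσS ⟨i, rfl⟩, Or.inr hl⟩
    · exact ⟨hx, σ i, hσS ⟨i, rfl⟩, Or.inl hl⟩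
  let J : Finset ℕ := (Finset.range (L + 1)).filter
    (fun i => ∀ x ∈ bdry S (C i), {y | linked S D.r (bdry S (C i)) x y}.encard ≤ k)
  have hJset : {i | i ≤ L ∧ ∀ x ∈ bdry S (C i),
      {y | linked S D.r (bdry S (C i)) x y}.encard ≤ k} = (J : Set ℕ) := by
    ext i
    simp only [J, Finset.coe_filter, Finset.mem_range, Set.mem_setOf_eq]
    constructor
    · rintro ⟨h1, h2⟩; exact ⟨by omega, h2⟩
    · rintro ⟨h1, h2⟩; exact ⟨by omega, h2⟩
  rw [hJset, Set.encard_coe_eq_coe_finsetCard]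
  have hmain := cutsLocF D.R D.r k 1 D.hr D.hR D.htors (X := X)
    (fun w hw x => by rw [hsm, D.hone w hw, one_smul])
    (by
      intro x y
      obtain ⟨g, hg⟩ := MulAction.exists_smul_eq G x y
      obtain ⟨h, rfl⟩ := D.hsurj g
      exact ⟨h, hg⟩) C L hC0 hCL hmono
    (by
      rintro i hi x hx ⟨j, b⟩
      rw [hsm, lift_lt]
      have h1 := (hC i (by omega) x hx).2 (σ j) (hσS ⟨j, rfl⟩)
      cases b
      · exact h1.2
      · exact h1.1) J
    (by
      intro i hi
      obtain ⟨h1, h2⟩ := Finset.mem_filter.1 hi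
      refine ⟨by have := Finset.mem_range.1 h1; omega, fun x hx => ?_⟩
      refine le_trans (Set.encard_le_encard ?_) (h2 x (hIB _ hx))
      intro y hy
      refine Relation.ReflTransGen.mono ?_ _ _ hy
      rintro a b ⟨ha, hb, g, hg, rfl⟩
      refine ⟨hIB _ ha, hIB _ hb, ?_⟩
      rw [hsm]
      exact hop_of_norm σ hσS g hg a)
  have h1 : J.card ≤ (k + 2) ^ ((D.r + 2 + mm (Fin M) D.r) * k) := by
    refine hmain.trans ?_
    have e : (D.r + 2 + mm (Fin M) D.r) * k = (D.r + 2) * k + mm (Fin M) D.r * k := by ring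
    rw [e, pow_add]
    apply Nat.mul_le_mul_right
    calc 1 * (D.r + 1) + 1 = D.r + 2 := by ring
      _ ≤ 2 ^ (D.r + 2) := Nat.lt_two_pow_self.le
      _ ≤ (k + 2) ^ (D.r + 2) := Nat.pow_le_pow_left (by omega) _
      _ ≤ (k + 2) ^ ((D.r + 2) * k) :=
        Nat.pow_le_pow_right (by omega) (Nat.le_mul_of_pos_right _ hk)
  exact_mod_cast h1

end Vale.Agent.P192.H437
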