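import Vale.Agent.P192.H437.Colour
import Vale.Agent.P192.H437.Grp

set_option linter.all false

/-! Two-colourings with small monochromatic components, group form. -/

namespace Vale.Agent.P192.H437

open Vale.Agent.P192 Vale.Agent.P192.H593 Function

universe u v

theorem lin_pow (k t : ℕ) : (t + 1) * k + 2 ≤ (k + 2) ^ (t + 1) := by
  induction t with
  | zero => simp
  | succ t ih =>
    rw [pow_succ]
    calc (t + 1 + 1) * k + 2 ≤ ((t + 1) * k + 2) * (k + 2) := by
          nlinarith [Nat.zero_le (t * k * k), Nat.zero_le (t * k), Nat.zero_le (k * k)]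
      _ ≤ (k + 2) ^ (t + 1) * (k + 2) := Nat.mul_le_mul_right _ ih

theorem bb_pos (α : Type) [DecidableEq α] [Finite α] : 1 ≤ bb α := by
  unfold bb
  have : Nonempty {g : FreeGroup α // g.norm ≤ 1} := ⟨⟨1, by simp⟩⟩
  exact Nat.card_pos

theorem num_bound (r b mu K n : ℕ) (hb : 1 ≤ b) (hK : 1 ≤ K)
    (h : ∀ L, (L + 1) * ((r + 2) * K + 1) ≤ n →
      L + 1 ≤ (r + 2) * (b * K + 2) ^ (mu * (b * K))) :
    n < (K + 2) ^ ((2 * r + 5 + b * b * mu) * K) := by
  set q := (r + 2) * K + 1 with hq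
  set T := (r + 2) * (b * K + 2) ^ (mu * (b * K)) with hT
  have h1 : n < q * (T + 1) := by
    by_contra hcon
    push Not at hcon
    have h2 := h T (by rw [mul_comm]; exact hcon)
    omega
  refine lt_of_lt_of_le h1 ?_
  have e1 : q ≤ (K + 2) ^ (r + 2) := by
    have : (r + 2) * K + 2 ≤ (K + 2) ^ (r + 2) := lin_pow K (r + 1)
    rw [hq]; omega
  have e2 : b * K + 2 ≤ (K + 2) ^ b := by
    obtain ⟨b', rfl⟩ : ∃ b', b = b' + 1 := ⟨b - 1, by omega⟩
    exact lin_pow K b'
  have e3 : T + 1 ≤ (K + 2) ^ (r + 3) * (K + 2) ^ (b * b * mu * K) := by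
    have h3 : (b * K + 2) ^ (mu * (b * K)) ≤ (K + 2) ^ (b * b * mu * K) := by
      calc (b * K + 2) ^ (mu * (b * K)) ≤ ((K + 2) ^ b) ^ (mu * (b * K)) :=
            Nat.pow_le_pow_left e2 _
        _ = (K + 2) ^ (b * b * mu * K) := by rw [← pow_mul]; congr 1; ring
    have h4 : 1 ≤ (K + 2) ^ (b * b * mu * K) := Nat.one_le_pow _ _ (by omega)
    have h5 : r + 3 ≤ (K + 2) ^ (r + 3) :=
      (Nat.lt_two_pow_self.le).trans (Nat.pow_le_pow_left (by omega) _)
    calc T + 1 ≤ (r + 2) * (K + 2) ^ (b * b * mu * K) + (K + 2) ^ (b * b * mu * K) := by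
          rw [hT]; exact add_le_add (Nat.mul_le_mul_left _ h3) h4
      _ = (r + 3) * (K + 2) ^ (b * b * mu * K) := by ring
      _ ≤ _ := Nat.mul_le_mul_right _ h5
  calc q * (T + 1) ≤ (K + 2) ^ (r + 2) * ((K + 2) ^ (r + 3) * (K + 2) ^ (b * b * mu * K)) :=
        Nat.mul_le_mul e1 e3
    _ = (K + 2) ^ ((2 * r + 5) + b * b * mu * K) := by rw [← pow_add, ← pow_add]; congr 1; ring
    _ ≤ (K + 2) ^ ((2 * r + 5 + b * b * mu) * K) := by
        apply Nat.pow_le_pow_right (by omega)
        rw [add_mul]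
        exact Nat.add_le_add_right (Nat.le_mul_of_pos_right _ hK) _

theorem colour_tuple (G : Type v) [Group G] {M : ℕ} (σ : Fin M → G) (D : Data G M σ) :
    ∃ R m : ℕ, ∀ (X : Type u) [MulAction G X] [MulAction.IsPretransitive G X]
      (U : Set X) (x : X) (n K : ℕ),
      (∀ y, hop (Set.range σ) n x y → {z | mono (Set.range σ) R U y z}.encard ≤ K) →
      (∃ y, ¬ hop (Set.range σ) n x y) → n < (K + 2) ^ (m * K) := by
  classical
  refine ⟨D.r + 2, 2 * D.r + 5 + bb (Fin M) * bb (Fin M) * mm (Fin M) D.r, ?_⟩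
  intro X _ _ U x n K hK hn
  letI : MulAction (FreeGroup (Fin M)) X :=
    MulAction.compHom X (FreeGroup.lift σ : FreeGroup (Fin M) →* G)
  have hsm : ∀ (g : FreeGroup (Fin M)) (x : X), g • x = (FreeGroup.lift σ g : G) • x :=
    fun _ _ => rfl
  have hK1 : 1 ≤ K := by
    have h1 := hK x ⟨[], by simp, by simp, by simp⟩
    have h2 : (1 : ℕ∞) ≤ {z | mono (Set.range σ) (D.r + 2) U x z}.encard :=
      Set.one_le_encard_iff_nonempty.2 ⟨x, Relation.ReflTransGen.refl⟩
    exact_mod_cast h2.trans h1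
  have hball : ∀ y, y ∈ Nb (Fin M) {x} n → hop (Set.range σ) n x y := by
    rintro y ⟨z, hz, g, hg, rfl⟩
    have hz' : z = x := hz
    rw [hz', hsm]
    exact hop_of_norm σ subset_rfl g hg x
  apply num_bound D.r (bb (Fin M)) (mm (Fin M) D.r) K n (bb_pos _) hK1
  intro L hL
  apply colourF D.R D.r D.hr D.hR D.htors (X := X)
    (fun w hw x => by rw [hsm, D.hone w hw, one_smul])
    (by
      intro x y
      obtain ⟨g, hg⟩ := MulAction.exists_smul_eq G x y
      obtain ⟨h, rfl⟩ := D.hsurj g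
      exact ⟨h, hg⟩) U x n K L
    (by
      intro y hy
      refine le_trans (Set.encard_le_encard ?_) (hK y (hball y hy))
      intro z hz
      refine Relation.ReflTransGen.mono ?_ _ _ hz
      rintro a b ⟨hab, g, hg, rfl⟩
      refine ⟨hab, ?_⟩
      rw [hsm]
      exact hop_of_norm σ subset_rfl g hg a)
    (by
      intro h
      obtain ⟨y, hy⟩ := hn
      apply hy
      apply hball
      rw [h]; trivial) hL

theorem hop_mono {G : Type v} [Group G] {X : Type u} [MulAction G X] {S T : Set G} (h : S ⊆ T)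
    {R : ℕ} {x y : X} (hxy : hop S R x y) : hop T R x y := by
  obtain ⟨w, h1, h2, h3⟩ := hxy
  exact ⟨w, fun s hs => (h1 s hs).imp (fun h' => h h') (fun h' => h h'), h2, h3⟩

theorem mono_mono {G : Type v} [Group G] {X : Type u} [MulAction G X] {S T : Set G} (h : S ⊆ T)
    {R : ℕ} {U : Set X} {x y : X} (hxy : mono S R U x y) : mono T R U x y :=
  Relation.ReflTransGen.mono (fun _ _ hab => ⟨hab.1, hop_mono h hab.2⟩) _ _ hxy

/-- TWO-COLOURINGS, quantitative -/
theorem colour (G : Type v) [Group G] [Group.IsFinitelyPresented G] (hG : IsMulTorsion G)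
    (S : Set G) (hS : Subgroup.closure S = ⊤) :
    ∃ R m : ℕ, ∀ (X : Type u) [MulAction G X] [MulAction.IsPretransitive G X]
      (U : Set X) (x : X) (n K : ℕ),
      (∀ y, hop S n x y → {z | mono S R U y z}.encard ≤ K) →
      (∃ y, ¬ hop S n x y) → n < (K + 2) ^ (m * K) := by
  obtain ⟨M, σ, hσS, hσ, -⟩ := exists_tuple G S hS
  obtain ⟨D⟩ := exists_data G hG σ hσ
  obtain ⟨R, m, h⟩ := colour_tuple.{u, v} G σ D
  refine ⟨R, m, ?_⟩
  intro X _ _ U x n K hK hn
  apply h X U x n K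
  · intro y hy
    exact le_trans (Set.encard_le_encard fun z hz => mono_mono hσS hz) (hK y (hop_mono hσS hy))
  · obtain ⟨y, hy⟩ := hn
    exact ⟨y, fun h' => hy (hop_mono hσS h')⟩

/-- TWO-COLOURINGS, uniform -/
theorem uniform_colour (G : Type v) [Group G] [Group.IsFinitelyPresented G] (hG : IsMulTorsion G)
    (S : Set G) (hS : Subgroup.closure S = ⊤) :
    ∃ R : ℕ, ∀ M : ℕ, ∃ N : Subgroup G, N.Normal ∧ N.FiniteIndex ∧
      ∀ (X : Type u) [MulAction G X] (U : Set X),
        (∀ x, {z | mono S R U x z}.encard ≤ M) → ∀ g ∈ N, ∀ x : X, g • x = x := by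
  classical
  obtain ⟨M0, σ, hσS, hσ, -⟩ := exists_tuple G S hS
  obtain ⟨D⟩ := exists_data G hG σ hσ
  obtain ⟨R, m, h⟩ := colour_tuple.{u, v} G σ D
  refine ⟨R, fun M => ?_⟩
  set n := (M + 2) ^ (m * M) with hn
  obtain ⟨N, h1, h2, h3⟩ := exists_kernel.{u, v} G
    (Nat.card {g : FreeGroup (Fin M0) // g.norm ≤ n})
  refine ⟨N, h1, h2, ?_⟩
  intro X _ U hU g hg x
  refine h3 X x ?_ g hg
  let x' : MulAction.orbit G x := ⟨x, MulAction.mem_orbit_self x⟩
  have hmo : ∀ y z : MulAction.orbit G x, mono (Set.range σ) R (Subtype.val ⁻¹' U) y z →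
      mono S R U y.1 z.1 := by
    intro y z hyz
    induction hyz with
    | refl => exact Relation.ReflTransGen.refl
    | @tail a b _ hst ih =>
      obtain ⟨hab, w, e1, e2, rfl⟩ := hst
      refine ih.tail ⟨hab, w, fun s hs => (e1 s hs).imp (fun h' => hσS h') (fun h' => hσS h'), e2, ?_⟩
      rfl
  have hall : ∀ y : MulAction.orbit G x, hop (Set.range σ) n x' y := by
    by_contra hcon
    push Not at hcon
    have h4 := h (MulAction.orbit G x) (Subtype.val ⁻¹' U) x' n M
      (by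
        intro y _
        have h5 : Subtype.val '' {z | mono (Set.range σ) R (Subtype.val ⁻¹' U) y z} ⊆
            {z | mono S R U y.1 z} := by
          rintro _ ⟨z, hz, rfl⟩
          exact hmo y z hz
        rw [← Subtype.val_injective.encard_image]
        exact (Set.encard_le_encard h5).trans (hU y.1)) hcon
    omega
  have h6 : MulAction.orbit G x ⊆
      (fun g : {g : FreeGroup (Fin M0) // g.norm ≤ n} => (FreeGroup.lift σ g.1 : G) • x) ''
        Set.univ := by
    intro y hy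
    obtain ⟨g, hg1, hg2⟩ := norm_of_hop σ (hall ⟨y, hy⟩)
    exact ⟨⟨g, hg1⟩, trivial, congrArg Subtype.val hg2⟩
  refine (Set.encard_le_encard h6).trans ((Set.encard_image_le _ _).trans ?_)
  rw [Set.encard_univ, ENat.card_eq_coe_natCard]

end Vale.Agent.P192.H437
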