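import Vale.Agent.P192.H437.ColourG
import Vale.Agent.P192.H630.Full

set_option linter.all false

/-! Topological full groups of free actions of groups of asymptotic dimension one. -/

namespace Vale.Agent.P192.H437

open Vale.Agent.P192 Vale.Agent.P192.H593 Function

universe u v w

theorem free_image (G : Type v) [Group G] [Group.IsFinitelyPresented G] (hG : IsMulTorsion G)
    (F : Type w) [Group F]
    (hF : ∀ E : Set F, E.Finite → ∃ M : ℕ, ∃ U : Set F, ∀ x : F,
      {y | Relation.ReflTransGen (fun a b => (a ∈ U ↔ b ∈ U) ∧ ∃ e ∈ E, b = e * a) x y}.encard ≤ M)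
    (Y : Type u) [MulAction F Y] (hfree : ∀ (f : F) (y : Y), f • y = y → f = 1)
    (ρ : G →* Equiv.Perm Y)
    (hρ : ∀ g : G, ∃ E : Set F, E.Finite ∧ ∀ y : Y, ∃ f ∈ E, ρ g y = f • y) :
    Finite ρ.range := by
  classical
  obtain ⟨S, hSf, hS⟩ := H630.exists_gens G
  choose E hE hE' using hρ
  set E0 : Set F := {1} ∪ ⋃ s ∈ S, (E s ∪ E s⁻¹) with hE0
  have hE0fin : E0.Finite := by
    refine (Set.finite_singleton _).union (hSf.biUnion fun s _ => (hE s).union (hE s⁻¹))
  obtain ⟨R, hR⟩ := uniform_colour.{u, v} G hG S hS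
  let P : ℕ → Set F := fun n => Nat.rec {1} (fun _ P => Set.image2 (fun a b => a * b) E0 P) n
  have hP0 : P 0 = {1} := rfl
  have hPs : ∀ n, P (n + 1) = Set.image2 (fun a b => a * b) E0 (P n) := fun _ => rfl
  have hPfin : ∀ n, (P n).Finite := by
    intro n
    induction n with
    | zero => rw [hP0]; exact Set.finite_singleton _
    | succ n ih => rw [hPs]; exact hE0fin.image2 _ ih
  have hP1 : ∀ n, (1 : F) ∈ P n := by
    intro n
    induction n with
    | zero => rw [hP0]; rfl
    | succ n ih => rw [hPs]; exact ⟨1, Or.inl rfl, 1, ih, by simp⟩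
  have hPmono : ∀ m n, m ≤ n → P m ⊆ P n := by
    intro m n hmn
    induction hmn with
    | refl => exact subset_rfl
    | @step n _ ih =>
      refine ih.trans fun f hf => ?_
      rw [hPs]; exact ⟨1, Or.inl rfl, f, hf, by simp⟩
  letI : MulAction G Y := MulAction.compHom Y ρ
  have hsm : ∀ (g : G) (y : Y), g • y = ρ g y := fun _ _ => rfl
  have hhop : ∀ y z : Y, hop S R y z → ∃ f ∈ P R, z = f • y := by
    rintro y z ⟨w, hw, hwR, rfl⟩
    have key : ∀ w : List G, (∀ s ∈ w, s ∈ S ∨ s⁻¹ ∈ S) → ∃ f ∈ P w.length, w.prod • y = f • y := by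
      intro w hw
      induction w with
      | nil => exact ⟨1, hP1 ([] : List G).length, by simp⟩
      | cons s w ih =>
        obtain ⟨f, hf, hf'⟩ := ih fun t ht => hw t (by simp [ht])
        obtain ⟨e, he, he'⟩ := hE' s (w.prod • y)
        refine ⟨e * f, ?_, ?_⟩
        · rw [List.length_cons, hPs]
          refine ⟨e, Or.inr ?_, f, hf, rfl⟩
          rcases hw s (by simp) with h | h
          · exact Set.mem_biUnion h (Or.inl he)
          · refine Set.mem_biUnion h (Or.inr ?_)
            rw [inv_inv]; exact he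
        · rw [List.prod_cons, mul_smul, hsm s, he', hf', mul_smul]
    obtain ⟨f, hf, hf'⟩ := key w hw
    exact ⟨f, hPmono _ _ hwR hf, hf'⟩
  obtain ⟨M, U, hU⟩ := hF (P R) (hPfin R)
  obtain ⟨N, h1, h2, h3⟩ := hR M
  let q : Y → MulAction.orbitRel.Quotient F Y := fun y => Quotient.mk'' y
  have hrep : ∀ y : Y, ∃ f : F, f • (q y).out = y := by
    intro y
    have h4 : MulAction.orbitRel F Y (q y).out y := Quotient.exact (Quotient.out_eq (q y))
    have h5 : (q y).out ∈ MulAction.orbit F y := h4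
    obtain ⟨f, hf⟩ := h5
    refine ⟨f⁻¹, ?_⟩
    rw [← hf]; exact inv_smul_smul f y
  choose f hf using hrep
  have hstep : ∀ (y : Y) (e : F), q (e • y) = q y ∧ f (e • y) = e * f y := by
    intro y e
    have h4 : q (e • y) = q y := by
      apply Quotient.sound
      show MulAction.orbitRel F Y (e • y) y
      exact ⟨e, rfl⟩
    refine ⟨h4, ?_⟩
    have h5 := hf (e • y)
    rw [h4] at h5
    have h6 := hf y
    have h7 : ((e * f y)⁻¹ * f (e • y)) • (q y).out = (q y).out := by
      rw [mul_smul, h5, mul_inv_rev, mul_smul, inv_smul_smul, inv_smul_eq_iff, h6]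
    have h8 := hfree _ _ h7
    rw [inv_mul_eq_one] at h8
    exact h8.symm
  refine range_finite_of_kernel ρ N h2 fun g hg => ?_
  ext y
  refine h3 Y {y | f y ∈ U} ?_ g hg y
  intro y
  have hsub : {z | mono S R {y | f y ∈ U} y z} ⊆ (fun a : F => a • (q y).out) ''
      {a | Relation.ReflTransGen (fun a b => (a ∈ U ↔ b ∈ U) ∧ ∃ e ∈ P R, b = e * a) (f y) a} := by
    have key : ∀ z, mono S R {y | f y ∈ U} y z → q z = q y ∧
        Relation.ReflTransGen (fun a b => (a ∈ U ↔ b ∈ U) ∧ ∃ e ∈ P R, b = e * a) (f y) (f z) := by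
      intro z hz
      induction hz with
      | refl => exact ⟨rfl, Relation.ReflTransGen.refl⟩
      | @tail a b _ hst ih =>
        obtain ⟨hab, hh⟩ := hst
        obtain ⟨e, he, rfl⟩ := hhop a b hh
        obtain ⟨e1, e2⟩ := hstep a e
        exact ⟨e1.trans ih.1, ih.2.tail ⟨hab, e, he, e2⟩⟩
    intro z hz
    obtain ⟨e1, e2⟩ := key z hz
    refine ⟨f z, e2, ?_⟩
    show f z • (q y).out = z
    rw [← e1]; exact hf z
  exact (Set.encard_le_encard hsub).trans ((Set.encard_image_le _ _).trans (hU _))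

theorem ediv_eq_of_close {a b L : ℤ} (hL : 0 < L) (h1 : |b - a| < L)
    (h2 : Even (a / L) ↔ Even (b / L)) : b / L = a / L := by
  have ha := Int.emod_add_mul_ediv a L
  have hb := Int.emod_add_mul_ediv b L
  have ha0 := Int.emod_nonneg a hL.ne'
  have hb0 := Int.emod_nonneg b hL.ne'
  have ha1 := Int.emod_lt_of_pos a hL
  have hb1 := Int.emod_lt_of_pos b hL
  obtain ⟨h3, h4⟩ := abs_lt.1 h1
  have h5 : b / L - a / L < 2 := by
    by_contra h
    push Not at h
    nlinarith
  have h6 : -2 < b / L - a / L := by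
    by_contra h
    push Not at h
    nlinarith
  have h7 : b / L - a / L = 0 := by
    have h8 : b / L - a / L = 0 ∨ b / L - a / L = 1 ∨ b / L - a / L = -1 := by omega
    rcases h8 with h | h | h
    · exact h
    · exfalso
      have : b / L = a / L + 1 := by omega
      rw [this, Int.even_add_one] at h2
      tauto
    · exfalso
      have : a / L = b / L + 1 := by omega
      rw [this, Int.even_add_one] at h2
      tauto
  omega

/-- (locally finite)-by-`ℤ` groups have asymptotic dimension at most one -/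
theorem lfz (F : Type w) [Group F] (π : F →* Multiplicative ℤ)
    (hker : ∀ Q : Set F, Q.Finite → (∀ q ∈ Q, π q = 1) → (Subgroup.closure Q : Set F).Finite)
    (E : Set F) (hE : E.Finite) : ∃ M : ℕ, ∃ U : Set F, ∀ x : F,
      {y | Relation.ReflTransGen (fun a b => (a ∈ U ↔ b ∈ U) ∧ ∃ e ∈ E, b = e * a) x y}.encard ≤ M := by
  classical
  let h : F → ℤ := fun x => Multiplicative.toAdd (π x)
  have hmul : ∀ a b, h (a * b) = h a + h b := fun a b => by simp [h]
  have hinv : ∀ a, h a⁻¹ = - h a := fun a => by simp [h]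
  have hone : ∀ a, h a = 0 → π a = 1 := fun a ha => by
    apply Multiplicative.toAdd.injective
    exact ha
  obtain ⟨L, hL0, hL⟩ : ∃ L : ℤ, 0 < L ∧ ∀ e ∈ E, |h e| < L := by
    obtain ⟨b, hb⟩ := (hE.image fun e => |h e|).bddAbove
    refine ⟨max b 0 + 1, by have := le_max_right b 0; omega, fun e he => ?_⟩
    have h1 := hb ⟨e, he, rfl⟩
    have h2 := le_max_left b 0
    have h3 : |h e| ≤ b := h1
    omega
  let t : ℤ → F := fun d => if d = 0 then 1 else if hd : ∃ a, h a = d then hd.choose else 1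
  have ht0 : t 0 = 1 := by simp [t]
  have ht : ∀ a, h (t (h a)) = h a := by
    intro a
    by_cases ha : h a = 0
    · rw [ha, ht0]; simp [h]
    · have hd : ∃ a', h a' = h a := ⟨a, rfl⟩
      simp only [t, if_neg ha, dif_pos hd]
      exact hd.choose_spec
  let Q : Set F := {q | π q = 1 ∧ q ∈ (fun p : F × ℤ × ℤ => (t p.2.2)⁻¹ * p.1 * t p.2.1) ''
    (E ×ˢ (Set.Icc (-L) L ×ˢ Set.Icc (-L) L))}
  have hQ : Q.Finite := by
    refine Set.Finite.subset (Set.Finite.image _ ?_) (fun q hq => hq.2)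
    exact hE.prod ((Set.finite_Icc _ _).prod (Set.finite_Icc _ _))
  have hcl := hker Q hQ fun q hq => hq.1
  have hfin : (Set.Icc (-L) L ×ˢ (Subgroup.closure Q : Set F)).Finite := (Set.finite_Icc _ _).prod hcl
  refine ⟨(Set.Icc (-L) L ×ˢ (Subgroup.closure Q : Set F)).ncard, {x | Even (h x / L)}, ?_⟩
  intro x
  have hd : ∀ a, h a - h x = h (a * x⁻¹) := fun a => by rw [hmul, hinv]; ring
  have hIcc : ∀ a, h a / L = h x / L → h a - h x ∈ Set.Icc (-L) L := by
    intro a ha
    have ea := Int.emod_add_mul_ediv (h a) L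
    have eb := Int.emod_add_mul_ediv (h x) L
    have ha0 := Int.emod_nonneg (h a) hL0.ne'
    have hb0 := Int.emod_nonneg (h x) hL0.ne'
    have ha1 := Int.emod_lt_of_pos (h a) hL0
    have hb1 := Int.emod_lt_of_pos (h x) hL0
    rw [ha] at ea
    constructor <;> omega
  have key : ∀ a, Relation.ReflTransGen (fun a b => (a ∈ {x | Even (h x / L)} ↔
      b ∈ {x | Even (h x / L)}) ∧ ∃ e ∈ E, b = e * a) x a →
      h a / L = h x / L ∧ (t (h a - h x))⁻¹ * (a * x⁻¹) ∈ Subgroup.closure Q := by
    intro a ha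
    induction ha with
    | refl =>
      refine ⟨rfl, ?_⟩
      rw [sub_self, ht0, inv_one, one_mul, mul_inv_cancel]
      exact Subgroup.one_mem _
    | @tail a b _ hst ih =>
      obtain ⟨hab, e, he, rfl⟩ := hst
      obtain ⟨ih1, ih2⟩ := ih
      have h1 : h (e * a) / L = h a / L := by
        apply ediv_eq_of_close hL0 _ hab
        rw [hmul, add_sub_cancel_right]
        exact hL e he
      have h2 := h1.trans ih1
      refine ⟨h2, ?_⟩
      have h3 : (t (h (e * a) - h x))⁻¹ * (e * a * x⁻¹) =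
          ((t (h (e * a) - h x))⁻¹ * e * t (h a - h x)) *
            ((t (h a - h x))⁻¹ * (a * x⁻¹)) := by group
      rw [h3]
      refine Subgroup.mul_mem _ (Subgroup.subset_closure ⟨?_, ?_⟩) ih2
      · apply hone
        rw [hmul, hmul, hinv, hd, hd, ht, ht, hmul, hmul, hmul]
        ring
      · exact ⟨(e, h a - h x, h (e * a) - h x), ⟨he, hIcc a ih1, hIcc _ h2⟩, rfl⟩
  have hsub : {y | Relation.ReflTransGen (fun a b => (a ∈ {x | Even (h x / L)} ↔
      b ∈ {x | Even (h x / L)}) ∧ ∃ e ∈ E, b = e * a) x y} ⊆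
      (fun p : ℤ × F => t p.1 * p.2 * x) '' (Set.Icc (-L) L ×ˢ (Subgroup.closure Q : Set F)) := by
    intro a ha
    obtain ⟨h1, h2⟩ := key a ha
    exact ⟨(h a - h x, (t (h a - h x))⁻¹ * (a * x⁻¹)), ⟨hIcc a h1, h2⟩, by simp⟩
  refine (Set.encard_le_encard hsub).trans ((Set.encard_image_le _ _).trans ?_)
  rw [hfin.cast_ncard_eq]

/-- topological full groups of free actions of (locally finite)-by-`ℤ` groups -/
theorem lfz_image (G : Type v) [Group G] [Group.IsFinitelyPresented G] (hG : IsMulTorsion G)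
    (F : Type w) [Group F] (π : F →* Multiplicative ℤ)
    (hker : ∀ Q : Set F, Q.Finite → (∀ q ∈ Q, π q = 1) → (Subgroup.closure Q : Set F).Finite)
    (Y : Type u) [MulAction F Y] (hfree : ∀ (f : F) (y : Y), f • y = y → f = 1)
    (ρ : G →* Equiv.Perm Y)
    (hρ : ∀ g : G, ∃ E : Set F, E.Finite ∧ ∀ y : Y, ∃ f ∈ E, ρ g y = f • y) :
    Finite ρ.range :=
  free_image G hG F (lfz F π hker) Y hfree ρ hρ

end Vale.Agent.P192.H437
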