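import Vale.Agent.P192.H437.Coh

set_option linter.all false

/-! Separated chains of sets with locally small boundaries. -/

namespace Vale.Agent.P192.H437

open Vale.Agent.P192 Vale.Agent.P192.H593 Function

universe u v

variable {α : Type} [DecidableEq α] {X : Type u} [MulAction (FreeGroup α) X]

/-- component of a point in a set -/
def cmp (α : Type) [DecidableEq α] {X : Type u} [MulAction (FreeGroup α) X] (U : Set X) (x : X) :
    Set X := {z | z ∈ U ∧ Conn (α := α) U x z}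

theorem cmp_ext {U : Set X} {x y : X} (hy : y ∈ cmp α U x) (l : α × Bool) (h : lt l • y ∈ U) :
    lt l • y ∈ cmp α U x := ⟨h, hy.2.tail ⟨hy.1, h, l, rfl⟩⟩

theorem cmp_ext' {U : Set X} {x y : X} (l : α × Bool) (hy : lt l • y ∈ cmp α U x) (h : y ∈ U) :
    y ∈ cmp α U x := by
  have h1 := cmp_ext hy (l.1, !l.2) (by rw [Glue.lt_inv_smul]; exact h)
  rwa [Glue.lt_inv_smul] at h1

theorem cmp_conn {U : Set X} {x : X} (hx : x ∈ U) {y : X} (hy : y ∈ cmp α U x) :
    Conn (α := α) (cmp α U x) x y := by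
  have key : ∀ y, Conn (α := α) U x y → y ∈ cmp α U x ∧ Conn (α := α) (cmp α U x) x y := by
    intro y hy
    induction hy with
    | refl => exact ⟨⟨hx, Relation.ReflTransGen.refl⟩, Relation.ReflTransGen.refl⟩
    | @tail z y _ hst ih =>
      obtain ⟨h1, h2, l, rfl⟩ := hst
      have h3 := cmp_ext ih.1 l h2
      exact ⟨h3, ih.2.tail ⟨ih.1, h3, l, rfl⟩⟩
  exact (key y hy.2).2

theorem cmp_conn2 {U : Set X} {x : X} (hx : x ∈ U) {y z : X} (hy : y ∈ cmp α U x)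
    (hz : z ∈ cmp α U x) : Conn (α := α) (cmp α U x) y z :=
  (conn_symm (cmp_conn hx hy)).trans (cmp_conn hx hz)

theorem conn_mono {U V : Set X} (h : U ⊆ V) {x y : X} (hc : Conn (α := α) U x y) :
    Conn (α := α) V x y :=
  Relation.ReflTransGen.mono (fun a b hab => ⟨h hab.1, h hab.2.1, hab.2.2⟩) _ _ hc

theorem cmp_mono {U V : Set X} (h : U ⊆ V) {x : X} : cmp α U x ⊆ cmp α V x :=
  fun y hy => ⟨h hy.1, conn_mono h hy.2⟩

theorem chn_mono {r : ℕ} {B B' : Set X} (h : B ⊆ B') {x y : X} (hc : Chn (α := α) r B x y) :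
    Chn (α := α) r B' x y :=
  Relation.ReflTransGen.mono (fun a b hab => ⟨h hab.1, h hab.2.1, hab.2.2⟩) _ _ hc

/-- separated chains with locally small boundaries, free group form -/
theorem cutsLocF [Finite α] (R : Set (FreeGroup α)) (r K q : ℕ) (hr : 2 ≤ r)
    (hR : ∀ w ∈ R, w.norm ≤ r)
    (htors : ∀ g : FreeGroup α, ∃ m, 0 < m ∧ g ^ m ∈ Subgroup.normalClosure R)
    (hRX : ∀ w ∈ R, ∀ x : X, w • x = x) (htr : ∀ x y : X, ∃ g : FreeGroup α, g • x = y)
    (C : ℕ → Set X) (L : ℕ) (h0 : (C 0).Nonempty) (hL : C L ≠ Set.univ)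
    (hmono : ∀ i j, i ≤ j → j ≤ L → C i ⊆ C j)
    (hstep : ∀ i, i + q ≤ L → ∀ x ∈ C i, ∀ l : α × Bool, lt l • x ∈ C (i + q))
    (J : Finset ℕ) (hJ : ∀ i ∈ J, i ≤ L ∧ ∀ x ∈ IB (α := α) (C i),
      {y | Chn (α := α) r (IB (α := α) (C i)) x y}.encard ≤ K) :
    J.card ≤ (q * (r + 1) + 1) * (K + 2) ^ (mm α r * K) := by
  classical
  obtain ⟨x0, hx0⟩ := h0
  obtain ⟨y0, hy0⟩ := (Set.ne_univ_iff_exists_notMem _).1 hL
  set E : ℕ → Set X := fun i => cmp α {z | z ∉ C i} y0 with hE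
  set F : ℕ → Set X := fun i => cmp α {z | z ∉ E i} x0 with hF
  have hy0C : ∀ i ≤ L, y0 ∉ C i := fun i hi h => hy0 (hmono i L hi le_rfl h)
  have hx0C : ∀ i ≤ L, x0 ∈ C i := fun i hi => hmono 0 i (Nat.zero_le i) hi hx0
  have hy0E : ∀ i ≤ L, y0 ∈ E i := fun i hi => ⟨hy0C i hi, Relation.ReflTransGen.refl⟩
  have hx0E : ∀ i ≤ L, x0 ∉ E i := fun i hi h => h.1 (hx0C i hi)
  have hx0F : ∀ i ≤ L, x0 ∈ F i := fun i hi => ⟨hx0E i hi, Relation.ReflTransGen.refl⟩
  have hEmono : ∀ i j, i ≤ j → j ≤ L → E j ⊆ E i := by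
    intro i j hij hj
    exact cmp_mono (U := {z | z ∉ C j}) (V := {z | z ∉ C i}) fun z hz h => hz (hmono i j hij hj h)
  have hFmono : ∀ i j, i ≤ j → j ≤ L → F i ⊆ F j := by
    intro i j hij hj
    exact cmp_mono (U := {z | z ∉ E i}) (V := {z | z ∉ E j}) fun z hz h => hz (hEmono i j hij hj h)
  have hb : ∀ i ≤ L, ∀ z ∈ F i, ∀ l : α × Bool, lt l • z ∉ F i →
      lt l • z ∈ E i ∧ z ∈ C i ∧ lt l • z ∉ C i := by
    intro i hi z hz l hl
    have h1 : lt l • z ∈ E i := by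
      by_contra h
      exact hl (cmp_ext hz l h)
    refine ⟨h1, ?_, h1.1⟩
    by_contra h
    exact hz.1 (cmp_ext' l h1 h)
  have hIB : ∀ i ≤ L, IB (α := α) (F i) ⊆ IB (α := α) (C i) := by
    rintro i hi z ⟨hz, l, hl⟩
    obtain ⟨-, h2, h3⟩ := hb i hi z hz l hl
    exact ⟨h2, l, h3⟩
  apply cutsF R r K q hr hR htors hRX htr F L ⟨x0, hx0F 0 (Nat.zero_le L)⟩
  · intro h
    have : y0 ∈ F L := by rw [h]; trivial
    exact this.1 (hy0E L le_rfl)
  · exact hFmono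
  · intro i hi x hx l
    have hx' := hFmono i (i + q) (by omega) hi hx
    by_cases h : lt l • x ∈ F i
    · exact hFmono i (i + q) (by omega) hi h
    · obtain ⟨-, h2, -⟩ := hb i (by omega) x hx l h
      exact cmp_ext hx' l fun h3 => h3.1 (hstep i hi x h2 l)
  · intro i hi
    obtain ⟨hiL, hiK⟩ := hJ i hi
    refine ⟨hiL, ?_⟩
    rcases (IB (α := α) (F i)).eq_empty_or_nonempty with h | ⟨x, hx⟩
    · rw [h]; simp
    · refine le_trans (Set.encard_le_encard ?_) (hiK x (hIB i hiL hx))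
      intro y hy
      refine chn_mono (hIB i hiL) (coh R r hR htors hRX (F i) (E i) ?_ ?_ ?_ ?_ x hx y hy)
      · intro z hz h
        exact h.1 hz
      · intro x hx y hy
        exact cmp_conn2 (hx0E i hiL) hx hy
      · intro x hx y hy
        exact cmp_conn2 (hy0C i hiL) hx hy
      · intro z hz l hl
        exact (hb i hiL z hz l hl).1

end Vale.Agent.P192.H437
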