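import Vale.Agent.P192.H437.Loc

set_option linter.all false

/-! A finite presentation on finitely many elements of a given generating set. -/

namespace Vale.Agent.P192.H437

open Vale.Agent.P192 Vale.Agent.P192.H593 Function

universe u v

/-- finite presentability does not depend on the generating tuple -/
theorem pres_of_gen (G : Type v) [Group G] [Group.IsFinitelyPresented G] {M : ℕ} (σ : Fin M → G)
    (hσ : Subgroup.closure (Set.range σ) = ⊤) :
    ∃ R : Set (FreeGroup (Fin M)), R.Finite ∧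
      Subgroup.normalClosure R = (FreeGroup.lift σ : FreeGroup (Fin M) →* G).ker := by
  obtain ⟨N, φ, hφ, R, hRfin, hRker⟩ := ‹Group.IsFinitelyPresented G›.out
  set ψ : FreeGroup (Fin M) →* G := FreeGroup.lift σ with hψ
  have hψs : Surjective ψ := FreeGroup.lift_surjective_iff_closure_range_eq_top.2 hσ
  choose W hW using fun i : Fin N => hψs (φ (FreeGroup.of i))
  choose V hV using fun j : Fin M => hφ (σ j)
  set θ : FreeGroup (Fin N) →* FreeGroup (Fin M) := FreeGroup.lift W with hθ
  set χ : FreeGroup (Fin M) →* FreeGroup (Fin N) := FreeGroup.lift V with hχ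
  have h1 : ∀ g, ψ (θ g) = φ g := by
    intro g
    have : ψ.comp θ = φ := by
      apply FreeGroup.ext_hom
      intro i
      simp only [MonoidHom.comp_apply, hθ, FreeGroup.lift_apply_of]
      exact hW i
    rw [← this]; rfl
  have h2 : ∀ g, φ (χ g) = ψ g := by
    intro g
    have : φ.comp χ = ψ := by
      apply FreeGroup.ext_hom
      intro i
      simp only [MonoidHom.comp_apply, hχ, hψ, FreeGroup.lift_apply_of]
      exact hV i
    rw [← this]; rfl
  set R' : Set (FreeGroup (Fin M)) :=
    θ '' R ∪ Set.range (fun j => (FreeGroup.of j)⁻¹ * θ (V j)) with hR'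
  refine ⟨R', (hRfin.image _).union (Set.finite_range _), le_antisymm ?_ ?_⟩
  · apply Subgroup.normalClosure_le_normal
    rintro _ (⟨w, hw, rfl⟩ | ⟨j, rfl⟩)
    · show ψ (θ w) = 1
      rw [h1]
      have : w ∈ φ.ker := by rw [← hRker]; exact Subgroup.subset_normalClosure hw
      exact this
    · show ψ ((FreeGroup.of j)⁻¹ * θ (V j)) = 1
      rw [map_mul, map_inv, h1, hV, hψ, FreeGroup.lift_apply_of, inv_mul_cancel]
  · intro g hg
    have hg' : ψ g = 1 := hg
    let K' := Subgroup.normalClosure R'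
    have h3 : ∀ g : FreeGroup (Fin M), (QuotientGroup.mk' K') (θ (χ g)) = QuotientGroup.mk' K' g := by
      intro g
      have : (QuotientGroup.mk' K').comp (θ.comp χ) = QuotientGroup.mk' K' := by
        apply FreeGroup.ext_hom
        intro j
        simp only [MonoidHom.comp_apply, hχ, FreeGroup.lift_apply_of]
        symm
        apply QuotientGroup.eq.2
        exact Subgroup.subset_normalClosure (Or.inr ⟨j, rfl⟩)
      exact congrArg (fun f : FreeGroup (Fin M) →* _ => f g) this
    have h4 : Subgroup.normalClosure R ≤ K'.comap θ := by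
      apply Subgroup.normalClosure_le_normal
      intro w hw
      exact Subgroup.subset_normalClosure (Or.inl ⟨w, hw, rfl⟩)
    have h5 : χ g ∈ Subgroup.normalClosure R := by
      rw [hRker]
      show φ (χ g) = 1
      rw [h2, hg']
    have h6 := h3 g
    have h7 : (QuotientGroup.mk' K') (θ (χ g)) = 1 := (QuotientGroup.eq_one_iff _).2 (h4 h5)
    rw [h7] at h6
    exact (QuotientGroup.eq_one_iff _).1 h6.symm

/-- a presentation with torsion data on a generating tuple -/
structure Data (G : Type v) [Group G] (M : ℕ) (σ : Fin M → G) where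
  R : Set (FreeGroup (Fin M))
  r : ℕ
  hr : 2 ≤ r
  hR : ∀ w ∈ R, w.norm ≤ r
  htors : ∀ g : FreeGroup (Fin M), ∃ m, 0 < m ∧ g ^ m ∈ Subgroup.normalClosure R
  hone : ∀ w ∈ R, (FreeGroup.lift σ : FreeGroup (Fin M) →* G) w = 1
  hsurj : Surjective (FreeGroup.lift σ : FreeGroup (Fin M) →* G)

theorem exists_data (G : Type v) [Group G] [Group.IsFinitelyPresented G] (hG : IsMulTorsion G)
    {M : ℕ} (σ : Fin M → G) (hσ : Subgroup.closure (Set.range σ) = ⊤) :
    Nonempty (Data G M σ) := by
  obtain ⟨R, hRfin, hRker⟩ := pres_of_gen G σ hσ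
  obtain ⟨r0, hr0⟩ : ∃ r0, ∀ w ∈ R, w.norm ≤ r0 := by
    obtain ⟨b, hb⟩ := (hRfin.image FreeGroup.norm).bddAbove
    exact ⟨b, fun w hw => hb ⟨w, hw, rfl⟩⟩
  refine ⟨⟨R, max 2 r0, le_max_left _ _, fun w hw => (hr0 w hw).trans (le_max_right _ _), ?_, ?_,
    FreeGroup.lift_surjective_iff_closure_range_eq_top.2 hσ⟩⟩
  · intro g
    obtain ⟨m, hm, hm'⟩ := isOfFinOrder_iff_pow_eq_one.1 (hG ((FreeGroup.lift σ) g))
    refine ⟨m, hm, ?_⟩
    rw [hRker, MonoidHom.mem_ker, map_pow, hm']
  · intro w hw
    have : w ∈ (FreeGroup.lift σ : FreeGroup (Fin M) →* G).ker := by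
      rw [← hRker]; exact Subgroup.subset_normalClosure hw
    exact this

/-- a finite part of a generating set which still generates -/
theorem exists_tuple (G : Type v) [Group G] [Group.IsFinitelyPresented G] (S : Set G)
    (hS : Subgroup.closure S = ⊤) :
    ∃ (M : ℕ) (σ : Fin M → G), Set.range σ ⊆ S ∧ Subgroup.closure (Set.range σ) = ⊤ ∧
      (S.Finite → Set.range σ = S) := by
  classical
  have fin_case : ∀ T : Set G, T.Finite → ∃ (M : ℕ) (σ : Fin M → G), Set.range σ = T := by
    intro T hT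
    have : Finite T := hT
    obtain ⟨n, ⟨e⟩⟩ := Finite.exists_equiv_fin T
    refine ⟨n, fun i => (e.symm i : G), ?_⟩
    ext x
    constructor
    · rintro ⟨i, rfl⟩; exact (e.symm i).2
    · intro hx; exact ⟨e ⟨x, hx⟩, by simp⟩
  by_cases hfin : S.Finite
  · obtain ⟨M, σ, h⟩ := fin_case S hfin
    exact ⟨M, σ, h.subset, by rw [h]; exact hS, fun _ => h⟩
  · obtain ⟨N, φ, hφ, -⟩ := ‹Group.IsFinitelyPresented G›.out
    choose W hW1 hW2 using fun i : Fin N => exists_list S hS (φ (FreeGroup.of i))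
    let T : Set G := {s | s ∈ S ∧ ∃ i, s ∈ W i ∨ s⁻¹ ∈ W i}
    have hT : T.Finite := by
      have h1 : T ⊆ ⋃ i, ({s | s ∈ W i} ∪ (fun s : G => s⁻¹) '' {s | s ∈ W i}) := by
        rintro s ⟨-, i, h | h⟩
        · exact Set.mem_iUnion.2 ⟨i, Or.inl h⟩
        · exact Set.mem_iUnion.2 ⟨i, Or.inr ⟨_, h, inv_inv s⟩⟩
      refine Set.Finite.subset (Set.finite_iUnion fun i => ?_) h1
      exact (List.finite_toSet _).union ((List.finite_toSet _).image _)
    obtain ⟨M, σ, h⟩ := fin_case T hT
    refine ⟨M, σ, by rw [h]; exact fun s hs => hs.1, ?_, fun h => absurd h hfin⟩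
    rw [h, eq_top_iff]
    intro g _
    obtain ⟨w, rfl⟩ := hφ g
    have h2 : ∀ w : FreeGroup (Fin N), φ w ∈ Subgroup.closure T := by
      intro w
      have h3 : (Subgroup.closure T).comap φ = ⊤ := by
        rw [eq_top_iff, ← FreeGroup.closure_range_of, Subgroup.closure_le]
        rintro _ ⟨i, rfl⟩
        show φ (FreeGroup.of i) ∈ Subgroup.closure T
        rw [← hW2 i]
        apply Subgroup.list_prod_mem
        intro s hs
        rcases hW1 i s hs with h4 | h4
        · exact Subgroup.subset_closure ⟨h4, i, Or.inl hs⟩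
        · rw [← inv_inv s]
          exact Subgroup.inv_mem _ (Subgroup.subset_closure ⟨h4, i, Or.inr (by rw [inv_inv]; exact hs)⟩)
      have : w ∈ (Subgroup.closure T).comap φ := by rw [h3]; trivial
      exact this
    exact h2 w

/-- elements of the free group as lists of generators -/
theorem list_of_free {G : Type v} [Group G] {M : ℕ} (σ : Fin M → G) (g : FreeGroup (Fin M)) :
    ∃ w : List G, (∀ s ∈ w, s ∈ Set.range σ ∨ s⁻¹ ∈ Set.range σ) ∧ w.length = g.norm ∧
      w.prod = FreeGroup.lift σ g := by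
  refine ⟨g.toWord.map fun x => cond x.2 (σ x.1) (σ x.1)⁻¹, ?_, ?_, ?_⟩
  · intro s hs
    obtain ⟨x, -, rfl⟩ := List.mem_map.1 hs
    rcases x.2 with _ | _
    · right; simp
    · left; simp
  · rw [List.length_map]; rfl
  · rw [← FreeGroup.lift_mk, FreeGroup.mk_toWord]

theorem free_of_list {G : Type v} [Group G] {M : ℕ} (σ : Fin M → G) (w : List G)
    (hw : ∀ s ∈ w, s ∈ Set.range σ ∨ s⁻¹ ∈ Set.range σ) :
    ∃ g : FreeGroup (Fin M), g.norm ≤ w.length ∧ FreeGroup.lift σ g = w.prod := by
  induction w with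
  | nil => exact ⟨1, by simp, by simp⟩
  | cons s w ih =>
    obtain ⟨g, h1, h2⟩ := ih fun t ht => hw t (by simp [ht])
    rcases hw s (by simp) with ⟨i, hi⟩ | ⟨i, hi⟩
    · refine ⟨FreeGroup.of i * g, ?_, ?_⟩
      · have := FreeGroup.norm_mul_le (FreeGroup.of i) g
        rw [FreeGroup.norm_of] at this
        rw [List.length_cons]; omega
      · rw [map_mul, h2, FreeGroup.lift_apply_of, List.prod_cons, hi]
    · refine ⟨(FreeGroup.of i)⁻¹ * g, ?_, ?_⟩
      · have := FreeGroup.norm_mul_le (FreeGroup.of i)⁻¹ g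
        rw [FreeGroup.norm_inv_eq, FreeGroup.norm_of] at this
        rw [List.length_cons]; omega
      · rw [map_mul, h2, map_inv, FreeGroup.lift_apply_of, List.prod_cons, hi, inv_inv]

end Vale.Agent.P192.H437
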