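import Vale.Agent.P192.H437.ColourG
import Vale.Agent.P192.H593.Narrow

set_option linter.all false

/-! Bounded displacement in graphs of asymptotic dimension one and in graphs with locally small
boundaries. -/

namespace Vale.Agent.P192.H437

open Vale.Agent.P192 Vale.Agent.P192.H593 Function SimpleGraph Filter Asymptotics

universe u v

theorem edist_hop {G : Type v} [Group G] {X : Type u} [MulAction G X] (Γ : SimpleGraph X)
    (S : Set G) (c : ℕ) (hc : ∀ s ∈ S, ∀ x : X, Γ.edist x (s • x) ≤ c) {R : ℕ} {x y : X}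
    (h : hop S R x y) : Γ.edist x y ≤ ((c * R : ℕ) : ℕ∞) := by
  obtain ⟨w, hw, hR, rfl⟩ := h
  have key : ∀ w : List G, (∀ s ∈ w, s ∈ S ∨ s⁻¹ ∈ S) →
      Γ.edist x (w.prod • x) ≤ ((c * w.length : ℕ) : ℕ∞) := by
    intro w hw
    induction w with
    | nil => simp
    | cons s w ih =>
      rw [List.prod_cons, mul_smul, List.length_cons, Nat.mul_succ, Nat.cast_add]
      refine (Γ.edist_triangle (v := w.prod • x)).trans ?_
      refine add_le_add (ih fun t ht => hw t (by simp [ht])) ?_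
      rcases hw s (by simp) with h | h
      · exact hc s h _
      · have h1 := hc s⁻¹ h (s • w.prod • x)
        rw [inv_smul_smul, SimpleGraph.edist_comm] at h1
        exact h1
  refine (key w hw).trans ?_
  exact_mod_cast Nat.mul_le_mul_left c hR

theorem uniform_two (G : Type v) [Group G] [Group.IsFinitelyPresented G] (hG : IsMulTorsion G)
    (S : Set G) (hS : Subgroup.closure S = ⊤) (c : ℕ) :
    ∃ r : ℕ, ∀ M : ℕ, ∃ N : Subgroup G, N.Normal ∧ N.FiniteIndex ∧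
      ∀ (X : Type u) (Γ : SimpleGraph X) (U : Set X),
        (∀ x, {y | Relation.ReflTransGen (fun a b => (a ∈ U ↔ b ∈ U) ∧ Γ.edist a b ≤ r) x y}.encard
          ≤ M) →
        ∀ ρ : G →* Equiv.Perm X, (∀ s ∈ S, ∀ x : X, Γ.edist x (ρ s x) ≤ c) →
          ∀ g ∈ N, ρ g = 1 := by
  obtain ⟨R, h⟩ := uniform_colour.{u, v} G hG S hS
  refine ⟨c * R, fun M => ?_⟩
  obtain ⟨N, h1, h2, h3⟩ := h M
  refine ⟨N, h1, h2, ?_⟩
  intro X Γ U hU ρ hρ g hg
  letI : MulAction G X := MulAction.compHom X ρ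
  have hsm : ∀ (g : G) (y : X), g • y = ρ g y := fun _ _ => rfl
  ext x
  have h4 := h3 X U (by
    intro x
    refine le_trans (Set.encard_le_encard ?_) (hU x)
    intro z hz
    exact Relation.ReflTransGen.mono (fun a b hab => ⟨hab.1, edist_hop Γ S c hρ hab.2⟩) _ _ hz)
    g hg x
  exact h4

theorem asdim_image (G : Type v) [Group G] [Group.IsFinitelyPresented G] (hG : IsMulTorsion G)
    (X : Type u) (Γ : SimpleGraph X) (Δ : ℕ) (hΔ : ∀ x, (Γ.neighborSet x).encard ≤ Δ)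
    (hdim : ∀ r : ℕ, ∃ D : ℕ, ∃ U : Set X, ∀ x y : X,
      Relation.ReflTransGen (fun a b => (a ∈ U ↔ b ∈ U) ∧ Γ.edist a b ≤ r) x y → Γ.edist x y ≤ D)
    (ρ : G →* Equiv.Perm X) (hρ : ∀ g : G, ∃ c : ℕ, ∀ x : X, Γ.edist x (ρ g x) ≤ c) :
    Finite ρ.range := by
  obtain ⟨S, hSf, hS⟩ := H630.exists_gens G
  choose c hc using hρ
  obtain ⟨c0, hc0⟩ := H630.exists_bound hSf c
  obtain ⟨r, hr⟩ := uniform_two.{u, v} G hG S hS c0
  obtain ⟨D, U, hU⟩ := hdim r
  obtain ⟨N, h1, h2, h3⟩ := hr ((Δ + 1) ^ D)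
  refine range_finite_of_kernel ρ N h2 fun g hg => h3 X Γ U ?_ ρ ?_ g hg
  · intro x
    refine le_trans (Set.encard_le_encard ?_) (H630.near_card Γ Δ hΔ D x)
    intro y hy
    exact H630.walk_of_edist (hU x y hy)
  · intro s hs x
    refine (hc s x).trans ?_
    exact_mod_cast hc0 s hs

/-- exhaustions with locally small boundaries -/
theorem local_narrow (G : Type v) [Group G] [Group.IsFinitelyPresented G] (hG : IsMulTorsion G)
    (Y : Type u) (Γ : SimpleGraph Y) (Δ : ℕ) (hΔ : ∀ y, (Γ.neighborSet y).encard ≤ Δ)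
    (F : ℕ → Set Y)
    (hF : ∀ i, ∀ y ∈ F i, y ∈ F (i + 1) ∧ ∀ z, Γ.Adj y z → z ∈ F (i + 1))
    (hFb : ∀ r : ℕ, ∃ b : ℕ → ℕ, ((fun i : ℕ => (b i : ℝ)) =o[atTop]
        (fun i : ℕ => Real.log i / Real.log (Real.log i))) ∧
      ∀ i, ∀ x ∈ {y | y ∈ F i ∧ ∃ z, Γ.Adj y z ∧ z ∉ F i},
        {y | Relation.ReflTransGen (fun a c => a ∈ {y | y ∈ F i ∧ ∃ z, Γ.Adj y z ∧ z ∉ F i} ∧
          c ∈ {y | y ∈ F i ∧ ∃ z, Γ.Adj y z ∧ z ∉ F i} ∧ Γ.edist a c ≤ r) x y}.encard ≤ b i)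
    (ρ : G →* Equiv.Perm Y) (hρ : ∀ g : G, ∃ c : ℕ, ∀ y : Y, Γ.edist y (ρ g y) ≤ c)
    (y : Y) (hy : ∃ i, y ∈ F i) : ∃ j, ∀ g : G, ρ g y ∈ F j := by
  classical
  obtain ⟨S, hSfin, hS⟩ := exists_fin_gen G
  choose d hd using hρ
  obtain ⟨c0, hc0⟩ := H630.exists_bound hSfin d
  letI : MulAction G Y := MulAction.compHom Y ρ
  have hsm : ∀ (g : G) (y : Y), g • y = ρ g y := fun _ _ => rfl
  have hdist : ∀ s ∈ S, ∀ z : Y, Γ.edist z (s • z) ≤ c0 := by
    intro s hs z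
    refine (hd s z).trans ?_
    exact_mod_cast hc0 s hs
  have hwalk : ∀ s ∈ S, ∀ z : Y, ∃ p : Γ.Walk z (s • z), p.length ≤ c0 := by
    intro s hs z
    exact H630.walk_of_edist (hdist s hs z)
  have hwalk' : ∀ s ∈ S, ∀ z : Y, ∃ p : Γ.Walk z (s⁻¹ • z), p.length ≤ c0 := by
    intro s hs z
    have h1 := hwalk s hs (s⁻¹ • z)
    rw [smul_inv_smul] at h1
    obtain ⟨p, hp⟩ := h1
    exact ⟨p.reverse, by rwa [Walk.length_reverse]⟩
  obtain ⟨R, m, hm⟩ := local_cuts.{u, v} G hG S hS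
  obtain ⟨i0, hi0⟩ := hy
  have hFmono : ∀ i j, i ≤ j → F i ⊆ F j := by
    intro i j hij
    induction hij with
    | refl => exact subset_rfl
    | @step j hij ih => exact ih.trans fun x hx => (hF j x hx).1
  set r := c0 + (c0 * R + c0) with hr
  obtain ⟨b, hb, hFb⟩ := hFb r
  obtain ⟨n, K, hnK, hbK⟩ := exists_len (m + 1) c0 i0 ((Δ + 1) ^ c0) (by omega) b hb
  by_contra hcon
  push Not at hcon
  let C : ℕ → Set (MulAction.orbit G y) := fun i => {z | z.1 ∈ F (c0 * i + i0)}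
  have h1 := hm (MulAction.orbit G y) C n K ⟨⟨y, MulAction.mem_orbit_self y⟩, by
      show y ∈ F (c0 * 0 + i0)
      rw [mul_zero, zero_add]; exact hi0⟩ (by
      intro h
      obtain ⟨g, hg⟩ := hcon (c0 * n + i0)
      apply hg
      have h2 : (⟨g • y, MulAction.mem_orbit y g⟩ : MulAction.orbit G y) ∈ C n := by
        rw [h]; trivial
      exact h2) (by
      intro i _ z hz
      have e : c0 * (i + 1) + i0 = c0 * i + i0 + c0 := by ring
      have hz' : z.1 ∈ F (c0 * i + i0) := hz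
      refine ⟨?_, fun s hs => ⟨?_, ?_⟩⟩
      · show z.1 ∈ F (c0 * (i + 1) + i0)
        exact hFmono _ _ (by rw [e]; omega) hz'
      · show s • z.1 ∈ F (c0 * (i + 1) + i0)
        obtain ⟨p, hp⟩ := hwalk s hs z.1
        exact hFmono _ _ (by rw [e]; omega) (walk_in F hF p _ hz')
      · show s⁻¹ • z.1 ∈ F (c0 * (i + 1) + i0)
        obtain ⟨p, hp⟩ := hwalk' s hs z.1
        exact hFmono _ _ (by rw [e]; omega) (walk_in F hF p _ hz'))
  have h2 : ∀ i ≤ n, ∀ x ∈ bdry S (C i), {z | linked S R (bdry S (C i)) x z}.encard ≤ K := by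
    intro i hi x hx
    set B : Set Y := {y | y ∈ F (c0 * i + i0) ∧ ∃ z, Γ.Adj y z ∧ z ∉ F (c0 * i + i0)} with hB
    -- every boundary point is close to a boundary point of `F`
    have hnear : ∀ z ∈ bdry S (C i), ∃ u ∈ B, z.1 ∈ H630.near Γ c0 u := by
      rintro z ⟨hz, s, hs, h⟩
      have hz' : z.1 ∈ F (c0 * i + i0) := hz
      obtain ⟨w, p, hp, hw⟩ : ∃ w, ∃ p : Γ.Walk z.1 w, p.length ≤ c0 ∧ w ∉ F (c0 * i + i0) := by
        rcases h with h | h
        · obtain ⟨p, hp⟩ := hwalk s hs z.1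
          exact ⟨_, p, hp, h⟩
        · obtain ⟨p, hp⟩ := hwalk' s hs z.1
          exact ⟨_, p, hp, h⟩
      obtain ⟨u, hu1, p', hp'⟩ := walk_exit (F (c0 * i + i0)) p hz' hw
      exact ⟨u, hu1, p', hp'.trans hp⟩
    have hne : ∀ {u z : Y}, z ∈ H630.near Γ c0 u → Γ.edist u z ≤ (c0 : ℕ∞) := by
      rintro u z ⟨p, hp⟩
      exact (SimpleGraph.edist_le p).trans (by exact_mod_cast hp)
    obtain ⟨u0, hu0, hxu0⟩ := hnear x hx
    have key : ∀ z, linked S R (bdry S (C i)) x z → ∃ u ∈ B, z.1 ∈ H630.near Γ c0 u ∧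
        Relation.ReflTransGen (fun a c => a ∈ B ∧ c ∈ B ∧ Γ.edist a c ≤ r) u0 u := by
      intro z hz
      induction hz with
      | refl => exact ⟨u0, hu0, hxu0, Relation.ReflTransGen.refl⟩
      | @tail a a' _ hst ih =>
        obtain ⟨ha, ha', hop⟩ := hst
        obtain ⟨u, hu, hau, hch⟩ := ih
        obtain ⟨u', hu', hau'⟩ := hnear a' ha'
        refine ⟨u', hu', hau', hch.tail ⟨hu, hu', ?_⟩⟩
        have e1 := hne hau
        have e2 := hne hau'
        rw [SimpleGraph.edist_comm] at e2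
        have e3 : Γ.edist a.1 a'.1 ≤ ((c0 * R : ℕ) : ℕ∞) := by
          apply edist_hop Γ S c0 hdist
          obtain ⟨w, hw1, hw2, hw3⟩ := hop
          exact ⟨w, hw1, hw2, congrArg Subtype.val hw3⟩
        rw [hr, Nat.cast_add, Nat.cast_add]
        refine (Γ.edist_triangle (v := a.1)).trans (add_le_add e1 ?_)
        exact (Γ.edist_triangle (v := a'.1)).trans (add_le_add e3 e2)
    have h3 := H630.biUnion_le {u | Relation.ReflTransGen
        (fun a c => a ∈ B ∧ c ∈ B ∧ Γ.edist a c ≤ r) u0 u} (H630.near Γ c0)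
        (b (c0 * i + i0)) ((Δ + 1) ^ c0) (hFb _ u0 hu0) fun u _ => H630.near_card Γ Δ hΔ c0 u
    rw [← Subtype.val_injective.encard_image]
    have hsub : Subtype.val '' {z | linked S R (bdry S (C i)) x z} ⊆
        ⋃ u ∈ {u | Relation.ReflTransGen (fun a c => a ∈ B ∧ c ∈ B ∧ Γ.edist a c ≤ r) u0 u},
          H630.near Γ c0 u := by
      rintro _ ⟨z, hz, rfl⟩
      obtain ⟨u, _, hzu, hch⟩ := key z hz
      exact Set.mem_biUnion hch hzu
    refine (Set.encard_le_encard hsub).trans (h3.trans ?_)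
    exact_mod_cast hbK i hi
  have h3 : {i | i ≤ n ∧ ∀ x ∈ bdry S (C i),
      {z | linked S R (bdry S (C i)) x z}.encard ≤ K} = (Finset.range (n + 1) : Set ℕ) := by
    ext i
    simp only [Finset.coe_range, Set.mem_Iio, Set.mem_setOf_eq]
    constructor
    · rintro ⟨h, -⟩; omega
    · intro h; exact ⟨by omega, h2 i (by omega)⟩
  rw [h3, Set.encard_coe_eq_coe_finsetCard, Finset.card_range] at h1
  have h4 : n + 1 ≤ (K + 2) ^ (m * K) := by exact_mod_cast h1
  have h5 : (K + 2) ^ (m * K) ≤ (K + 2) ^ ((m + 1) * K) :=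
    Nat.pow_le_pow_right (by omega) (Nat.mul_le_mul_right _ (by omega))
  omega

end Vale.Agent.P192.H437
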